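import Vale.Agent.P207.N3.H547.Case2

/-!
# P207, N3, P17 (ii): linear formal families, the strong axis, the relation for `N`

(helper547)
-/

open Set Filter Topology Asymptotics
open scoped ContDiff

noncomputable section

set_option linter.unusedSectionVars false

namespace Vale.Agent.P207.N3.H547

/-! ### The strong axis -/

/-- A smooth function `f`, `f 0 = 0`, which is `e^{-w n} Q(n)` along a sequence which tends to `0`
at the rate `l1 > w`: `Q = 0`. -/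
theorem axis_zero {E : Type} [NormedAddCommGroup E] [NormedSpace ℝ E] {w l1 : ℝ} (hw : w < l1)
    (hl1 : 0 < l1) {f : E → ℝ} (hf : DifferentiableAt ℝ f 0) (hf0 : f 0 = 0) {Q : Polynomial ℝ}
    {z : ℕ → E} {C : ℝ} (hz : ∀ᶠ n : ℕ in atTop, ‖z n‖ ≤ C * Real.exp (-l1 * n))
    (hdyn : ∀ᶠ n : ℕ in atTop, f (z n) = Real.exp (-w * n) * Q.eval (n : ℝ)) : Q = 0 := by
  apply poly_eq_zero_of_tendsto
  have hz0 : Tendsto z atTop (𝓝 0) := by
    rw [tendsto_zero_iff_norm_tendsto_zero]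
    have h1 := (tendsto_exp_poly hl1 (Polynomial.C C))
    refine squeeze_zero' (Eventually.of_forall fun n => norm_nonneg _) ?_ h1
    filter_upwards [hz] with n hn
    rw [Polynomial.eval_C, mul_comm]
    exact hn
  obtain ⟨K, hK⟩ := (hf.hasFDerivAt.isBigO_sub.comp_tendsto hz0).bound
  have h2 := (tendsto_exp_poly (sub_pos.2 hw) (Polynomial.C (|K| * C)))
  refine squeeze_zero_norm' ?_ h2
  filter_upwards [hK, hz, hdyn] with n h3 h4 h5
  simp only [Function.comp_apply, hf0, sub_zero] at h3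
  have h6 : Q.eval (n : ℝ) = Real.exp (w * n) * f (z n) := by
    rw [h5, ← mul_assoc, ← Real.exp_add]
    simp
  rw [h6, norm_mul, Real.norm_eq_abs (Real.exp _), abs_of_pos (Real.exp_pos _),
    Polynomial.eval_C]
  calc Real.exp (w * n) * ‖f (z n)‖ ≤ Real.exp (w * n) * (|K| * (C * Real.exp (-l1 * n))) := by
        refine mul_le_mul_of_nonneg_left ?_ (Real.exp_pos _).le
        calc ‖f (z n)‖ ≤ K * ‖z n‖ := h3
          _ ≤ |K| * ‖z n‖ := mul_le_mul_of_nonneg_right (le_abs_self K) (norm_nonneg _)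
          _ ≤ |K| * (C * Real.exp (-l1 * n)) := mul_le_mul_of_nonneg_left h4 (abs_nonneg K)
    _ = Real.exp (w * n) * Real.exp (-l1 * n) * (|K| * C) := by ring
    _ = Real.exp (-(l1 - w) * n) * (|K| * C) := by
        rw [← Real.exp_add]
        congr 2
        ring

/-! ### Linear families -/

section Lin

variable {J : Type} [Fintype J] [DecidableEq J]

/-- the linear family of leaves -/
def linF (ψ : J → P2 → P2) (z : (J → ℝ) × P2) : P2 := ∑ j, z.1 j • ψ j z.2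

theorem contDiffAt_linF {ψ : J → P2 → P2} {q : P2} (hψ : ∀ j, ContDiffAt ℝ ∞ (ψ j) q)
    (t : J → ℝ) : ContDiffAt ℝ ∞ (linF ψ) (t, q) := by
  unfold linF
  refine ContDiffAt.sum fun j _ => ?_
  have h1 : ContDiffAt ℝ ∞ (fun z : (J → ℝ) × P2 => z.1 j) (t, q) :=
    ((ContinuousLinearMap.proj (R := ℝ) (φ := fun _ : J => ℝ) j).contDiff.comp
      contDiff_fst).contDiffAt
  have h2 : ContDiffAt ℝ ∞ (fun z : (J → ℝ) × P2 => ψ j z.2) (t, q) :=
    ContDiffAt.comp (t, q) (g := ψ j) (f := fun z : (J → ℝ) × P2 => z.2) (hψ j)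
      contDiffAt_snd
  exact h1.smul h2

theorem fderiv_linF {ψ : J → P2 → P2} {q : P2} (hψ : ∀ j, DifferentiableAt ℝ (ψ j) q)
    (t τ : J → ℝ) (v : P2) : fderiv ℝ (linF ψ) (t, q) (τ, v) =
      ∑ j, (t j • fderiv ℝ (ψ j) q v + τ j • ψ j q) := by
  have h1 : HasFDerivAt (linF ψ) (∑ j, ((t j) • (fderiv ℝ (ψ j) q ∘L
      ContinuousLinearMap.snd ℝ (J → ℝ) P2) +
      ((ContinuousLinearMap.proj (R := ℝ) (φ := fun _ : J => ℝ) j) ∘L
        ContinuousLinearMap.fst ℝ (J → ℝ) P2).smulRight (ψ j q))) (t, q) := by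
    unfold linF
    refine HasFDerivAt.fun_sum fun j _ => ?_
    have h2 : HasFDerivAt (fun z : (J → ℝ) × P2 => z.1 j)
        ((ContinuousLinearMap.proj (R := ℝ) (φ := fun _ : J => ℝ) j) ∘L
        ContinuousLinearMap.fst ℝ (J → ℝ) P2) (t, q) :=
      ((ContinuousLinearMap.proj (R := ℝ) (φ := fun _ : J => ℝ) j).comp
        (ContinuousLinearMap.fst ℝ (J → ℝ) P2)).hasFDerivAt
    have h3 : HasFDerivAt (fun z : (J → ℝ) × P2 => ψ j z.2)
        (fderiv ℝ (ψ j) q ∘L ContinuousLinearMap.snd ℝ (J → ℝ) P2) (t, q) :=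
      HasFDerivAt.comp (t, q) (g := ψ j) (f := fun z : (J → ℝ) × P2 => z.2)
        (hψ j).hasFDerivAt hasFDerivAt_snd
    exact h2.smul h3
  rw [h1.fderiv]
  simp

theorem linF_zero (ψ : J → P2 → P2) (q : P2) : linF ψ (0, q) = 0 := by
  simp [linF]

end Lin

/-! ### The relation for `N = M (1 - M' M)⁻¹` -/

/-- If `N (1 - M' M) = M` and `N x = y` then `M (x + M' y) = y`. -/
theorem rel_of_N {E : Type} [NormedAddCommGroup E] [NormedSpace ℝ E] {M M' N : E →L[ℝ] E}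
    (hN : N ∘L (ContinuousLinearMap.id ℝ E - M' ∘L M) = M)
    (hs : Function.Surjective (ContinuousLinearMap.id ℝ E - M' ∘L M)) {x y : E} (h : N x = y) :
    M (x + M' y) = y := by
  obtain ⟨z, rfl⟩ := hs x
  have h1 : N ((ContinuousLinearMap.id ℝ E - M' ∘L M) z) = M z :=
    congrArg (fun L : E →L[ℝ] E => L z) hN
  have h2 : M z = y := h1.symm.trans h
  have h3 : (ContinuousLinearMap.id ℝ E - M' ∘L M) z + M' y = z := by
    rw [← h2]
    simp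
  rw [h3, h2]

variable {G I : Type} [Fintype G] [Fintype I] [DecidableEq G] [DecidableEq I]

/-- **Claim (ii) of 4.6, for a linear family of leaves.** `ψ g = ∇(q^a / a!)`, `a = idx g`, for the
corrected jets; `ψ i`, `i : I`, are the coefficients of the products of at least two jets.
`S y n q` is the gradient of the generating function of the leaf of `φⁿ y`. The relation is
`M (ξ p + M' (h p)) = h p`, at the points `p = S (κ p)`. -/
theorem smooth_light_lin' {l1 l2 W₀ : ℝ} (h2 : 0 < l2) (h12 : l2 < l1) (hW₀ : 2 * l1 ≤ W₀)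
    {idx : G → ℕ × ℕ} (hinj : Function.Injective idx) (hne : ∀ g, idx g ≠ (0, 0))
    {e0 e1 : G} (he0 : idx e0 = (1, 0)) (he1 : idx e1 = (0, 1))
    {wI : I → ℝ} (hwI : ∀ i, 0 < wI i)
    {V : Set P2} {P : P2 → G ⊕ I → Polynomial ℝ}
    (hT0 : ∀ y ∈ V, (P y (.inl e0)).eval 0 = y 0) (hT1 : ∀ y ∈ V, (P y (.inl e1)).eval 0 = y 1)
    (hy1 : ∃ y ∈ V, y 1 ≠ 0) (hy0 : ∃ y ∈ V, y 1 = 0 ∧ y 0 ≠ 0)
    (hI : ∀ i, (∀ g, ww l1 l2 idx wI (.inl g) < wI i →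
        ContDiffOn ℝ ∞ (fun y => (P y (.inl g)).eval 0) V) →
      ContDiffOn ℝ ∞ (fun y => (P y (.inr i)).eval 0) V)
    (hI0 : ∀ i, ∀ y ∈ V, (∀ g, ww l1 l2 idx wI (.inl g) < wI i → (P y (.inl g)).eval 0 = 0) →
      (P y (.inr i)).eval 0 = 0)
    (hax : ∀ g, ww l1 l2 idx wI (.inl g) < l1 →
      ContDiffOn ℝ ∞ (fun y => (P y (.inl g)).eval 0) V →
      ∀ y ∈ V, y 1 = 0 → (P y (.inl g)).eval 0 = 0)
    {ψ : G ⊕ I → P2 → P2} {κ ξ h : P2 → P2} (hκ : ContDiffAt ℝ ∞ κ 0)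
    (hξ : ContDiffAt ℝ ∞ ξ 0) (hh : ContDiffAt ℝ ∞ h 0)
    (hψ : ∀ j, ContDiffAt ℝ ∞ (ψ j) (κ 0)) (hψg : ∀ g, ∀ᶠ q in 𝓝 (κ 0), ψ (.inl g) q = gm (idx g) q)
    (hx : κ 0 1 ≠ 0) (hξ1 : ξ 0 1 ≠ 0)
    -- the true leaves, their points of intersection with `q = κ p`, and the relation
    {S : P2 → ℕ → P2 → P2} {pn : P2 → ℕ → P2}
    (hS : ∀ y ∈ V, ∃ ε : ℕ → ℝ, (∀ W < W₀,
        Tendsto (fun n : ℕ => Real.exp (W * n) * ε n) atTop (𝓝 0)) ∧
      ∀ᶠ n in atTop,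
        ‖S y n (κ (pn y n)) - linF ψ (tn (ww l1 l2 idx wI) (P y) n, κ (pn y n))‖ ≤ ε n ∧
        ∀ v, ‖fderiv ℝ (S y n) (κ (pn y n)) v -
          fderiv ℝ (linF ψ) (tn (ww l1 l2 idx wI) (P y) n, κ (pn y n)) (0, v)‖ ≤ ε n * ‖v‖)
    (hpn : ∀ y ∈ V, Tendsto (pn y) atTop (𝓝 0))
    (hpeq : ∀ y ∈ V, ∀ᶠ n in atTop, pn y n = S y n (κ (pn y n)))
    (hrel : ∀ y ∈ V, ∀ᶠ n in atTop, fderiv ℝ (S y n) (κ (pn y n))
      (ξ (pn y n) + fderiv ℝ κ (pn y n) (h (pn y n))) = h (pn y n)) :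
    ∀ g, ww l1 l2 idx wI (.inl g) < 2 * l1 →
      ContDiffOn ℝ ∞ (fun y => (P y (.inl g)).eval 0) V := by
  have hl1 : 0 < l1 := h2.trans h12
  set w := ww l1 l2 idx wI with hwdef
  have hw : ∀ a, 0 < w a := by
    rintro (g | i)
    · change 0 < (idx g).1 * l1 + (idx g).2 * l2
      rcases Nat.eq_zero_or_pos (idx g).1 with h1 | h1
      · have h3 : (idx g).2 ≠ 0 := fun h3 => hne g (Prod.ext h1 h3)
        have h4 : (0 : ℝ) < (idx g).2 := by exact_mod_cast Nat.pos_of_ne_zero h3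
        rw [h1]
        push_cast
        nlinarith
      · have h4 : (0 : ℝ) < (idx g).1 := by exact_mod_cast h1
        have h5 : (0 : ℝ) ≤ (idx g).2 := Nat.cast_nonneg _
        have h6 := mul_pos h4 hl1
        have h7 := mul_nonneg h5 h2.le
        linarith
    · exact hwI i
  -- the modified field
  set ζ : P2 → P2 := fun p => ξ p + fderiv ℝ κ p (h p) with hζdef
  have hζ : ContDiffAt ℝ ∞ ζ 0 := hξ.add ((hκ.fderiv_right (by simp)).clm_apply hh)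
  have hΦ : ∀ t, ContDiffAt ℝ ∞ (linF ψ) (t, κ 0) := contDiffAt_linF hψ
  have hrel' : ∀ y ∈ V, ∀ᶠ n in atTop, fderiv ℝ (S y n) (κ (pn y n)) (ζ (pn y n)) = h (pn y n) :=
    hrel
  -- `h 0 = 0`
  have hh0 : h 0 = 0 := by
    obtain ⟨y, hy, -⟩ := hy1
    obtain ⟨ε, hε, hS'⟩ := hS y hy
    have htn := tendsto_tn hw (P y)
    have hκn : Tendsto (fun n => κ (pn y n)) atTop (𝓝 (κ 0)) :=
      hκ.continuousAt.tendsto.comp (hpn y hy)
    have hζn : Tendsto (fun n => ζ (pn y n)) atTop (𝓝 (ζ 0)) :=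
      hζ.continuousAt.tendsto.comp (hpn y hy)
    have h3 : Tendsto (fun n => fderiv ℝ (linF ψ) (tn w (P y) n, κ (pn y n)) (0, ζ (pn y n)))
        atTop (𝓝 (fderiv ℝ (linF ψ) (0, κ 0) (0, ζ 0))) := by
      have h4 : ContinuousAt (fderiv ℝ (linF ψ)) (0, κ 0) :=
        ((hΦ 0).fderiv_right (m := ∞) (by simp)).continuousAt
      have h5 := h4.tendsto.comp (htn.prodMk_nhds hκn)
      have h6 : Tendsto (fun n => ((0 : G ⊕ I → ℝ), ζ (pn y n))) atTop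
          (𝓝 ((0 : G ⊕ I → ℝ), ζ 0)) := tendsto_const_nhds.prodMk_nhds hζn
      exact ((isBoundedBilinearMap_apply (𝕜 := ℝ) (E := (G ⊕ I → ℝ) × P2)
        (F := P2)).continuous.tendsto _).comp (h5.prodMk_nhds h6)
    rw [fderiv_zero_leaf ((hΦ 0).differentiableAt (by simp))
      (Eventually.of_forall (linF_zero ψ))] at h3
    have h5 : Tendsto (fun n => ε n * ‖ζ (pn y n)‖) atTop (𝓝 0) := by
      have h6 := hε 0 (by linarith)
      simp only [zero_mul, Real.exp_zero, one_mul] at h6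
      simpa using h6.mul hζn.norm
    have h7 : Tendsto (fun n => h (pn y n)) atTop (𝓝 0) := by
      have h8 : Tendsto (fun n => fderiv ℝ (S y n) (κ (pn y n)) (ζ (pn y n)) -
          fderiv ℝ (linF ψ) (tn w (P y) n, κ (pn y n)) (0, ζ (pn y n))) atTop (𝓝 0) := by
        refine squeeze_zero_norm' ?_ h5
        filter_upwards [hS'] with n hn
        exact (hn.2) _
      have h9 := h8.add h3
      simp only [add_zero, sub_add_cancel] at h9
      refine h9.congr' ?_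
      filter_upwards [hrel' y hy] with n hn using hn
    exact tendsto_nhds_unique (hh.continuousAt.tendsto.comp (hpn y hy)) h7
  have hζ0 : ζ 0 = ξ 0 := by simp [hζdef, hh0]
  refine smooth_light (Φ := linF ψ) (κ := κ) (ζ := ζ) (h := h) h2 h12 hW₀ hinj hne he0 he1 hwI
    hT0 hT1 hy1 hy0 hI hI0 hax hκ hζ hh (hΦ 0) (Eventually.of_forall (linF_zero ψ)) ?_ hx
    (by rw [hζ0]; exact hξ1) ?_
  · intro g
    have h3 : ∀ᶠ q in 𝓝 (κ 0), ∀ j, DifferentiableAt ℝ (ψ j) q := by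
      rw [eventually_all]
      intro j
      have h6 := ((hψ j).of_le (m := 1) (by simp)).eventually (by simp)
      filter_upwards [h6] with z hz using hz.differentiableAt (by simp)
    filter_upwards [h3, hψg g] with q h4 h5
    rw [fderiv_linF h4]
    simp only [Pi.zero_apply, zero_smul, zero_add, Pi.single_apply, ite_smul, one_smul,
      Finset.sum_ite_eq', Finset.mem_univ, if_true]
    exact h5
  · intro y hy
    obtain ⟨ε, hε, hS'⟩ := hS y hy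
    refine ⟨pn y, fun n => fderiv ℝ (S y n) (κ (pn y n)), ε, hε, hpn y hy, ?_, ?_, hrel' y hy⟩
    · filter_upwards [hS', hpeq y hy] with n h3 h4
      have h5 := h3.1
      rw [← h4] at h5
      exact h5
    · filter_upwards [hS'] with n h3 using h3.2

/-- **Claim (ii) of 4.6, for a linear family of leaves**, with the relation `N (ξ p) = h p`,
`N (1 - M' M) = M`. -/
theorem smooth_light_lin {l1 l2 W₀ : ℝ} (h2 : 0 < l2) (h12 : l2 < l1) (hW₀ : 2 * l1 ≤ W₀)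
    {idx : G → ℕ × ℕ} (hinj : Function.Injective idx) (hne : ∀ g, idx g ≠ (0, 0))
    {e0 e1 : G} (he0 : idx e0 = (1, 0)) (he1 : idx e1 = (0, 1))
    {wI : I → ℝ} (hwI : ∀ i, 0 < wI i)
    {V : Set P2} {P : P2 → G ⊕ I → Polynomial ℝ}
    (hT0 : ∀ y ∈ V, (P y (.inl e0)).eval 0 = y 0) (hT1 : ∀ y ∈ V, (P y (.inl e1)).eval 0 = y 1)
    (hy1 : ∃ y ∈ V, y 1 ≠ 0) (hy0 : ∃ y ∈ V, y 1 = 0 ∧ y 0 ≠ 0)
    (hI : ∀ i, (∀ g, ww l1 l2 idx wI (.inl g) < wI i →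
        ContDiffOn ℝ ∞ (fun y => (P y (.inl g)).eval 0) V) →
      ContDiffOn ℝ ∞ (fun y => (P y (.inr i)).eval 0) V)
    (hI0 : ∀ i, ∀ y ∈ V, (∀ g, ww l1 l2 idx wI (.inl g) < wI i → (P y (.inl g)).eval 0 = 0) →
      (P y (.inr i)).eval 0 = 0)
    (hax : ∀ g, ww l1 l2 idx wI (.inl g) < l1 →
      ContDiffOn ℝ ∞ (fun y => (P y (.inl g)).eval 0) V →
      ∀ y ∈ V, y 1 = 0 → (P y (.inl g)).eval 0 = 0)
    {ψ : G ⊕ I → P2 → P2} {κ ξ h : P2 → P2} (hκ : ContDiffAt ℝ ∞ κ 0)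
    (hξ : ContDiffAt ℝ ∞ ξ 0) (hh : ContDiffAt ℝ ∞ h 0)
    (hψ : ∀ j, ContDiffAt ℝ ∞ (ψ j) (κ 0)) (hψg : ∀ g, ∀ᶠ q in 𝓝 (κ 0), ψ (.inl g) q = gm (idx g) q)
    (hx : κ 0 1 ≠ 0) (hξ1 : ξ 0 1 ≠ 0)
    -- the true leaves, their points of intersection with `q = κ p`, and the relation
    {S : P2 → ℕ → P2 → P2} {pn : P2 → ℕ → P2}
    (hS : ∀ y ∈ V, ∃ ε : ℕ → ℝ, (∀ W < W₀,
        Tendsto (fun n : ℕ => Real.exp (W * n) * ε n) atTop (𝓝 0)) ∧
      ∀ᶠ n in atTop,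
        ‖S y n (κ (pn y n)) - linF ψ (tn (ww l1 l2 idx wI) (P y) n, κ (pn y n))‖ ≤ ε n ∧
        ∀ v, ‖fderiv ℝ (S y n) (κ (pn y n)) v -
          fderiv ℝ (linF ψ) (tn (ww l1 l2 idx wI) (P y) n, κ (pn y n)) (0, v)‖ ≤ ε n * ‖v‖)
    (hpn : ∀ y ∈ V, Tendsto (pn y) atTop (𝓝 0))
    (hpeq : ∀ y ∈ V, ∀ᶠ n in atTop, pn y n = S y n (κ (pn y n)))
    (hrel : ∀ y ∈ V, ∀ᶠ n in atTop, ∃ N : P2 →L[ℝ] P2,
      N ∘L (ContinuousLinearMap.id ℝ P2 - fderiv ℝ κ (pn y n) ∘L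
        fderiv ℝ (S y n) (κ (pn y n))) = fderiv ℝ (S y n) (κ (pn y n)) ∧
      Function.Surjective (ContinuousLinearMap.id ℝ P2 - fderiv ℝ κ (pn y n) ∘L
        fderiv ℝ (S y n) (κ (pn y n))) ∧ N (ξ (pn y n)) = h (pn y n)) :
    ∀ g, ww l1 l2 idx wI (.inl g) < 2 * l1 →
      ContDiffOn ℝ ∞ (fun y => (P y (.inl g)).eval 0) V := by
  refine smooth_light_lin' h2 h12 hW₀ hinj hne he0 he1 hwI hT0 hT1 hy1 hy0 hI hI0 hax hκ hξ hh hψ
    hψg hx hξ1 hS hpn hpeq ?_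
  intro y hy
  filter_upwards [hrel y hy] with n hn
  obtain ⟨N, hN1, hN2, hN3⟩ := hn
  exact rel_of_N hN1 hN2 hN3

end Vale.Agent.P207.N3.H547
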