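import Vale.Agent.P207.N3.H391.PF
import Vale.Agent.P207.N3.H547.Case2b

/-!
# P207, N3, P17 (ii): regular leaves of the product formula

`RegLeaf D xs`: along the leaf `q = ∇ S'_{x_*} (p)` the tensor `N = (1 - M M')⁻¹ M` satisfies
`N ξ = h` with smooth `ξ`, `h`, `ξ(0)₂ ≠ 0`. `light_pf` : one regular leaf, an expansion of the
leaves of `y_n` in corrected jets ⟹ the light jets are smooth. (helper547)
-/

open Set Filter Topology Metric
open scoped ContDiff Gradient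

noncomputable section

set_option linter.unusedSectionVars false

namespace Vale.Agent.P207.N3.H547

open Vale.Agent.P207.N3

theorem contDiffAt_gradient {f : E2 → ℝ} {q : E2} (hf : ContDiffAt ℝ ∞ f q) :
    ContDiffAt ℝ ∞ (∇ f) q := by
  have h1 : ContDiffAt ℝ ∞ (fderiv ℝ f) q := hf.fderiv_right (by simp)
  exact (InnerProductSpace.toDual ℝ E2).symm.toContinuousLinearEquiv.contDiff.contDiffAt.comp q h1

theorem Half.contDiffAt_grad (H : Half) {y q : E2} (hy : y ∈ ball (0 : E2) H.r)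
    (hq : q ∈ ball (0 : E2) H.r) : ContDiffAt ℝ ∞ (∇ (H.S y)) q :=
  contDiffAt_gradient ((H.S_smooth y hy).contDiffAt (isOpen_ball.mem_nhds hq))

/-- The leaf `q = ∇ S'_{x_*} (p)` is regular: with `M` the slope of the leaf through the point
`p`, `M'` the slope of the leaf of `x_*`, and `N = (1 - M M')⁻¹ M`, the vector `N ξ` is a smooth
function of `p` for a smooth field `ξ`, `ξ(0)₂ ≠ 0`. `π y` is the point where the leaf of `y`
meets the leaf of `x_*`. -/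
def RegLeaf (D : PF) (xs : E2) : Prop :=
  xs ∈ ball (0 : E2) D.X.r ∧ xs 1 ≠ 0 ∧ ∃ ξ h π : E2 → E2,
    ContDiffAt ℝ ∞ ξ 0 ∧ ContDiffAt ℝ ∞ h 0 ∧ ξ 0 1 ≠ 0 ∧ Tendsto π (𝓝 0) (𝓝 0) ∧
    ∀ᶠ y in 𝓝 (0 : E2), π y = ∇ (D.Y.S y) (∇ (D.X.S xs) (π y)) ∧ ∃ N : E2 →L[ℝ] E2,
      N - fderiv ℝ (∇ (D.Y.S y)) (∇ (D.X.S xs) (π y)) ∘L fderiv ℝ (∇ (D.X.S xs)) (π y) ∘L N =
        fderiv ℝ (∇ (D.Y.S y)) (∇ (D.X.S xs) (π y)) ∧ N (ξ (π y)) = h (π y)

variable {G I : Type} [Fintype G] [Fintype I] [DecidableEq G] [DecidableEq I]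

/-- **Claim (ii) of 4.6 over the product formula.** -/
theorem light_pf {D : PF} {xs : E2} (hR : RegLeaf D xs) {l1 l2 W₀ : ℝ} (h2 : 0 < l2)
    (h12 : l2 < l1) (hW₀ : 2 * l1 ≤ W₀)
    {idx : G → ℕ × ℕ} (hinj : Function.Injective idx) (hne : ∀ g, idx g ≠ (0, 0))
    {e0 e1 : G} (he0 : idx e0 = (1, 0)) (he1 : idx e1 = (0, 1))
    {wI : I → ℝ} (hwI : ∀ i, 0 < wI i)
    {V : Set E2} {P : E2 → G ⊕ I → Polynomial ℝ}
    (hT0 : ∀ y ∈ V, (P y (.inl e0)).eval 0 = y 0) (hT1 : ∀ y ∈ V, (P y (.inl e1)).eval 0 = y 1)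
    (hy1 : ∃ y ∈ V, y 1 ≠ 0) (hy0 : ∃ y ∈ V, y 1 = 0 ∧ y 0 ≠ 0)
    (hI : ∀ i, (∀ g, ww l1 l2 idx wI (.inl g) < wI i →
        ContDiffOn ℝ ∞ (fun y => (P y (.inl g)).eval 0) V) →
      ContDiffOn ℝ ∞ (fun y => (P y (.inr i)).eval 0) V)
    (hI0 : ∀ i, ∀ y ∈ V, (∀ g, ww l1 l2 idx wI (.inl g) < wI i → (P y (.inl g)).eval 0 = 0) →
      (P y (.inr i)).eval 0 = 0)
    (hax : ∀ g, ww l1 l2 idx wI (.inl g) < l1 →
      ContDiffOn ℝ ∞ (fun y => (P y (.inl g)).eval 0) V →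
      ∀ y ∈ V, y 1 = 0 → (P y (.inl g)).eval 0 = 0)
    {ψ : G ⊕ I → E2 → E2} (hψ : ∀ j, ContDiffAt ℝ ∞ (ψ j) xs)
    (hψg : ∀ g, ∀ᶠ q in 𝓝 xs, ψ (.inl g) q = gm (idx g) q)
    -- the points `y_n` and the expansion of their leaves
    {yn : E2 → ℕ → E2} (hyn : ∀ y ∈ V, Tendsto (yn y) atTop (𝓝 0)) {r' : ℝ} (hr' : 0 < r')
    (hS : ∀ y ∈ V, ∃ ε : ℕ → ℝ, (∀ W < W₀,
        Tendsto (fun n : ℕ => Real.exp (W * n) * ε n) atTop (𝓝 0)) ∧
      ∀ᶠ n in atTop, ∀ q ∈ ball xs r',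
        ‖∇ (D.Y.S (yn y n)) q - linF ψ (tn (ww l1 l2 idx wI) (P y) n, q)‖ ≤ ε n ∧
        ∀ v, ‖fderiv ℝ (∇ (D.Y.S (yn y n))) q v -
          fderiv ℝ (linF ψ) (tn (ww l1 l2 idx wI) (P y) n, q) (0, v)‖ ≤ ε n * ‖v‖) :
    ∀ g, ww l1 l2 idx wI (.inl g) < 2 * l1 →
      ContDiffOn ℝ ∞ (fun y => (P y (.inl g)).eval 0) V := by
  obtain ⟨hxr, hx1, ξ, h, π, hξ, hh, hξ1, hπ, hrel⟩ := hR
  have hκ : ContDiffAt ℝ ∞ (∇ (D.X.S xs)) 0 :=
    Half.contDiffAt_grad D.X hxr (mem_ball_self D.X.r_pos)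
  have hκ0 : ∇ (D.X.S xs) 0 = xs := D.X.S_grad xs hxr
  have hev : ∀ y ∈ V, ∀ᶠ n in atTop, π (yn y n) = ∇ (D.Y.S (yn y n))
      (∇ (D.X.S xs) (π (yn y n))) ∧ ∃ N : E2 →L[ℝ] E2,
      N - fderiv ℝ (∇ (D.Y.S (yn y n))) (∇ (D.X.S xs) (π (yn y n))) ∘L
        fderiv ℝ (∇ (D.X.S xs)) (π (yn y n)) ∘L N =
        fderiv ℝ (∇ (D.Y.S (yn y n))) (∇ (D.X.S xs) (π (yn y n))) ∧
        N (ξ (π (yn y n))) = h (π (yn y n)) := fun y hy => (hyn y hy).eventually hrel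
  have hpn : ∀ y ∈ V, Tendsto (fun n => π (yn y n)) atTop (𝓝 0) := fun y hy => hπ.comp (hyn y hy)
  refine smooth_light_lin' h2 h12 hW₀ hinj hne he0 he1 hwI hT0 hT1 hy1 hy0 hI hI0 hax hκ hξ hh
    (by rw [hκ0]; exact hψ) (by rw [hκ0]; exact hψg) (by rw [hκ0]; exact hx1) hξ1
    (S := fun y n => ∇ (D.Y.S (yn y n))) (pn := fun y n => π (yn y n)) ?_ hpn ?_ ?_
  · intro y hy
    obtain ⟨ε, hε, hS'⟩ := hS y hy
    refine ⟨ε, hε, ?_⟩
    have h3 : ∀ᶠ n in atTop, ∇ (D.X.S xs) (π (yn y n)) ∈ ball xs r' := by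
      have h4 : Tendsto (fun n => ∇ (D.X.S xs) (π (yn y n))) atTop (𝓝 (∇ (D.X.S xs) 0)) :=
        hκ.continuousAt.tendsto.comp (hpn y hy)
      rw [hκ0] at h4
      exact h4.eventually (ball_mem_nhds xs hr')
    filter_upwards [hS', h3] with n h4 h5 using h4 _ h5
  · intro y hy
    filter_upwards [hev y hy] with n hn using hn.1
  · intro y hy
    filter_upwards [hev y hy] with n hn
    obtain ⟨-, N, hN1, hN2⟩ := hn
    set A := fderiv ℝ (∇ (D.Y.S (yn y n))) (∇ (D.X.S xs) (π (yn y n)))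
    set A' := fderiv ℝ (∇ (D.X.S xs)) (π (yn y n))
    have h3 : N (ξ (π (yn y n))) - A (A' (N (ξ (π (yn y n))))) = A (ξ (π (yn y n))) :=
      congrArg (fun L : E2 →L[ℝ] E2 => L (ξ (π (yn y n)))) hN1
    rw [hN2] at h3
    change A (ξ (π (yn y n)) + A' (h (π (yn y n)))) = h (π (yn y n))
    rw [map_add, ← h3]
    abel

/-! ### Regular leaves from the link -/

open ContinuousLinearMap in
/-- A leaf is regular if its tensor `T` (in a disc with the coordinate `u`) satisfies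
`T (∇ F) = Vg` smooth, `∂F/∂p₂ ≠ 0`, and is linked to the product formula by
`(1 - M M') (K - c DQ T DQ†) = M`, `p = Q u`. -/
theorem regLeaf_of {D : PF} {xs : E2} (hxs : xs ∈ ball (0 : E2) D.X.r) (hx1 : xs 1 ≠ 0)
    {u0 : E2} {Q : E2 → E2} (hQ : ContDiffAt ℝ ∞ Q u0) (hQ0 : Q u0 = 0) {Q' : E2 ≃L[ℝ] E2}
    (hQ' : fderiv ℝ Q u0 = Q')
    {K : E2 → E2 →L[ℝ] E2} (hK : ContDiffAt ℝ ∞ K u0) {c : ℝ} {T : E2 → E2 →L[ℝ] E2}
    {F : E2 → ℝ} (hF : ContDiffAt ℝ ∞ F u0) {Vg : E2 → E2} (hVg : ContDiffAt ℝ ∞ Vg u0)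
    (hT : ∀ᶠ u in 𝓝 u0, T u (∇ F u) = Vg u)
    (hreg : fderiv ℝ F u0 (Q'.symm (EuclideanSpace.single 1 1)) ≠ 0)
    {υ : E2 → E2} (hυ : Tendsto υ (𝓝 0) (𝓝 u0))
    (hlink : ∀ᶠ y in 𝓝 (0 : E2), Q (υ y) = ∇ (D.Y.S y) (∇ (D.X.S xs) (Q (υ y))) ∧
      (1 - fderiv ℝ (∇ (D.Y.S y)) (∇ (D.X.S xs) (Q (υ y))) ∘L
          fderiv ℝ (∇ (D.X.S xs)) (Q (υ y))) ∘L
        (K (υ y) - c • (fderiv ℝ Q (υ y) ∘L T (υ y) ∘L adjoint (fderiv ℝ Q (υ y)))) =
        fderiv ℝ (∇ (D.Y.S y)) (∇ (D.X.S xs) (Q (υ y)))) :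
    RegLeaf D xs := by
  classical
  have hQd : HasStrictFDerivAt Q (Q' : E2 →L[ℝ] E2) u0 := by
    rw [← hQ']
    exact hQ.hasStrictFDerivAt (by simp)
  set Qi : E2 → E2 := hQd.localInverse Q Q' u0 with hQidef
  have hQi1 : ∀ᶠ u in 𝓝 u0, Qi (Q u) = u := hQd.eventually_left_inverse
  have hQi0 : Qi 0 = u0 := by
    rw [← hQ0]
    exact hQd.localInverse_apply_image
  have hQis : ContDiffAt ℝ ∞ Qi 0 := by
    have h1 := hQ.to_localInverse (hQ'.symm ▸ (hQ.differentiableAt (by simp)).hasFDerivAt :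
      HasFDerivAt Q (Q' : E2 →L[ℝ] E2) u0) (by simp)
    rw [hQ0] at h1
    exact h1
  -- the function `F` in the coordinate `p`
  have hFs : ContDiffAt ℝ ∞ (F ∘ Qi) 0 := by
    refine ContDiffAt.comp 0 ?_ hQis
    rw [hQi0]
    exact hF
  have hKs : ContDiffAt ℝ ∞ (fun p => K (Qi p)) 0 := by
    refine ContDiffAt.comp (g := K) 0 ?_ hQis
    rw [hQi0]
    exact hK
  have hDs : ContDiffAt ℝ ∞ (fun p => fderiv ℝ Q (Qi p)) 0 := by
    refine ContDiffAt.comp (g := fderiv ℝ Q) 0 ?_ hQis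
    rw [hQi0]
    exact hQ.fderiv_right (by simp)
  have hVs : ContDiffAt ℝ ∞ (fun p => Vg (Qi p)) 0 := by
    refine ContDiffAt.comp (g := Vg) 0 ?_ hQis
    rw [hQi0]
    exact hVg
  refine ⟨hxs, hx1, ∇ (F ∘ Qi), fun p => K (Qi p) (∇ (F ∘ Qi) p) -
    c • (fderiv ℝ Q (Qi p) (Vg (Qi p))), fun y => Q (υ y), contDiffAt_gradient hFs, ?_, ?_, ?_, ?_⟩
  · exact (hKs.clm_apply (contDiffAt_gradient hFs)).sub
      ((hDs.clm_apply hVs).const_smul c)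
  · -- regularity
    have h1 : HasFDerivAt Qi (Q'.symm : E2 →L[ℝ] E2) 0 := by
      have h2 := hQd.to_localInverse.hasFDerivAt
      rw [hQ0] at h2
      exact h2
    have h3 : HasFDerivAt (F ∘ Qi) (fderiv ℝ F u0 ∘L (Q'.symm : E2 →L[ℝ] E2)) 0 := by
      refine HasFDerivAt.comp 0 ?_ h1
      rw [hQi0]
      exact (hF.differentiableAt (by simp)).hasFDerivAt
    have h4 : ∇ (F ∘ Qi) 0 1 = fderiv ℝ (F ∘ Qi) 0 (EuclideanSpace.single 1 1) := by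
      have h5 : inner ℝ (∇ (F ∘ Qi) 0) (EuclideanSpace.single 1 1) =
          fderiv ℝ (F ∘ Qi) 0 (EuclideanSpace.single 1 1) := by
        rw [gradient]
        exact InnerProductSpace.toDual_symm_apply
      have h6 : ∀ v : E2, inner ℝ v (EuclideanSpace.single 1 (1 : ℝ)) = v 1 := by
        intro v
        rw [EuclideanSpace.inner_single_right]
        simp
      rw [← h5, h6]
    rw [h4, h3.fderiv]
    exact hreg
  · have h1 : Tendsto Q (𝓝 u0) (𝓝 0) := by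
      have h2 := hQ.continuousAt.tendsto
      rw [hQ0] at h2
      exact h2
    exact h1.comp hυ
  · have hcomp : ∀ᶠ u in 𝓝 u0, ∇ F u = adjoint (fderiv ℝ Q u) (∇ (F ∘ Qi) (Q u)) := by
      have h1 : ∀ᶠ p in 𝓝 (0 : E2), DifferentiableAt ℝ (F ∘ Qi) p :=
        ((hFs.of_le (m := 1) (by simp)).eventually (by simp)).mono
          fun p hp => hp.differentiableAt (by simp)
      have h2 : ∀ᶠ u in 𝓝 u0, DifferentiableAt ℝ Q u :=
        ((hQ.of_le (m := 1) (by simp)).eventually (by simp)).mono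
          fun p hp => hp.differentiableAt (by simp)
      have h3 : Tendsto Q (𝓝 u0) (𝓝 0) := by
        have h2 := hQ.continuousAt.tendsto
        rw [hQ0] at h2
        exact h2
      filter_upwards [h3.eventually h1, h2, hQi1.eventually_nhds] with u g1 g2 g3
      have g4 : F =ᶠ[𝓝 u] (F ∘ Qi) ∘ Q := by
        filter_upwards [g3] with v hv
        simp only [Function.comp_apply, hv]
      have g5 : fderiv ℝ F u = fderiv ℝ (F ∘ Qi) (Q u) ∘L fderiv ℝ Q u := by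
        rw [g4.fderiv_eq]
        exact fderiv_comp u g1 g2
      apply ext_inner_right ℝ
      intro v
      rw [adjoint_inner_left, gradient, gradient, InnerProductSpace.toDual_symm_apply,
        InnerProductSpace.toDual_symm_apply, g5]
      rfl
    filter_upwards [hlink, hυ.eventually hcomp, hυ.eventually hT, hυ.eventually hQi1]
      with y h1 h2 h3 h4
    refine ⟨h1.1, K (υ y) - c • (fderiv ℝ Q (υ y) ∘L T (υ y) ∘L adjoint (fderiv ℝ Q (υ y))),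
      ?_, ?_⟩
    · rw [sub_comp, comp_assoc] at h1
      exact h1.2
    · simp only [sub_apply, smul_apply, coe_comp, Function.comp_apply, h4]
      rw [← h2, h3]

end Vale.Agent.P207.N3.H547
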