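import Vale.Agent.P207.N3.H547.LeafPr

/-!
# P207, N3, P17 (claim (ii) of 4.6): one regular homoclinic makes the light jets smooth

`y ↦ T y a`: the corrected jets of the leaf of `y`; all jets of weight `< 2 λ₁` are smooth, if the
leaves satisfy one regular smooth relation `M (ζ p) = h p` (`M` the slope of the leaf, `ζ`, `h`
smooth, `ζ(0)₂ ≠ 0`) along the fixed transversal leaf `q = κ p`, `κ 0 = x_*`, `(x_*)₂ ≠ 0`.
(helper547)
-/

open Set Filter Topology Asymptotics
open scoped ContDiff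

noncomputable section

set_option linter.unusedSectionVars false

namespace Vale.Agent.P207.N3.H547

/-- the plane -/
abbrev P2 : Type := EuclideanSpace ℝ (Fin 2)

/-! ### The gradient of the monomials -/

/-- `x ^ k / k!` -/
def dv (k : ℕ) (x : ℝ) : ℝ := x ^ k / k.factorial

/-- the derivative of `dv` -/
def dv' (k : ℕ) (x : ℝ) : ℝ := match k with
  | 0 => 0
  | k + 1 => dv k x

theorem hasDerivAt_dv (k : ℕ) (x : ℝ) : HasDerivAt (dv k) (dv' k x) x := by
  cases k with
  | zero =>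
    have h : dv 0 = fun _ => (1 : ℝ) := by funext x; simp [dv]
    rw [h]
    exact hasDerivAt_const x (1 : ℝ)
  | succ k =>
    have h1 := (hasDerivAt_pow (k + 1) x).div_const ((k + 1).factorial : ℝ)
    refine h1.congr_deriv ?_
    simp only [dv', dv, Nat.add_sub_cancel]
    have h2 : ((k.factorial : ℕ) : ℝ) ≠ 0 := by exact_mod_cast k.factorial_ne_zero
    rw [Nat.factorial_succ]
    push_cast
    field_simp

/-- the derivative of `dv'` -/
def dv'' (k : ℕ) (x : ℝ) : ℝ := match k with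
  | 0 => 0
  | k + 1 => dv' k x

theorem hasDerivAt_dv' (k : ℕ) (x : ℝ) : HasDerivAt (dv' k) (dv'' k x) x := by
  cases k with
  | zero =>
    have h : dv' 0 = fun _ => (0 : ℝ) := by funext x; simp [dv']
    rw [h]
    exact hasDerivAt_const x (0 : ℝ)
  | succ k => exact hasDerivAt_dv k x

/-- the monomial `q₁^i q₂^j / (i! j!)` -/
def mon (a : ℕ × ℕ) (q : P2) : ℝ := dv a.1 (q 0) * dv a.2 (q 1)

/-- its gradient -/
def gm (a : ℕ × ℕ) (q : P2) : P2 :=
  !₂[dv' a.1 (q 0) * dv a.2 (q 1), dv a.1 (q 0) * dv' a.2 (q 1)]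

theorem gm_zero (a : ℕ × ℕ) (q : P2) : gm a q 0 = dv' a.1 (q 0) * dv a.2 (q 1) := rfl

theorem gm_one (a : ℕ × ℕ) (q : P2) : gm a q 1 = dv a.1 (q 0) * dv' a.2 (q 1) := rfl

/-- the projections -/
def pr (i : Fin 2) : P2 →L[ℝ] ℝ := EuclideanSpace.proj i

theorem pr_apply (i : Fin 2) (q : P2) : pr i q = q i := rfl

theorem hasFDerivAt_comp_pr {f : ℝ → ℝ} {f' : ℝ} {i : Fin 2} {q : P2}
    (h : HasDerivAt f f' (q i)) : HasFDerivAt (fun q : P2 => f (q i)) (f' • pr i) q :=
  h.comp_hasFDerivAt q (pr i).hasFDerivAt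

theorem hasFDerivAt_mon (a : ℕ × ℕ) (q : P2) : HasFDerivAt (mon a)
    ((gm a q 0) • pr 0 + (gm a q 1) • pr 1) q := by
  have h1 := (hasFDerivAt_comp_pr (hasDerivAt_dv a.1 (q 0))).mul
    (hasFDerivAt_comp_pr (hasDerivAt_dv a.2 (q 1)))
  refine h1.congr_fderiv ?_
  ext v
  simp [gm_zero, gm_one, pr_apply]
  ring

theorem fderiv_gm (a : ℕ × ℕ) (q v : P2) :
    (fderiv ℝ (gm a) q v) 0 = dv'' a.1 (q 0) * dv a.2 (q 1) * v 0 +
        dv' a.1 (q 0) * dv' a.2 (q 1) * v 1 ∧
    (fderiv ℝ (gm a) q v) 1 = dv' a.1 (q 0) * dv' a.2 (q 1) * v 0 +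
        dv a.1 (q 0) * dv'' a.2 (q 1) * v 1 := by
  have h0 := (hasFDerivAt_comp_pr (hasDerivAt_dv' a.1 (q 0))).mul
    (hasFDerivAt_comp_pr (hasDerivAt_dv a.2 (q 1)))
  have h1 := (hasFDerivAt_comp_pr (hasDerivAt_dv a.1 (q 0))).mul
    (hasFDerivAt_comp_pr (hasDerivAt_dv' a.2 (q 1)))
  have hd : DifferentiableAt ℝ (gm a) q := by
    rw [differentiableAt_euclidean]
    intro i
    fin_cases i
    · exact h0.differentiableAt
    · exact h1.differentiableAt
  have key : ∀ i : Fin 2, (fderiv ℝ (gm a) q v) i = fderiv ℝ (fun q => gm a q i) q v := by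
    intro i
    have h2 := ((pr i).hasFDerivAt.comp q hd.hasFDerivAt).fderiv
    have h3 : fderiv ℝ (fun q => gm a q i) q = (pr i) ∘L fderiv ℝ (gm a) q := h2
    rw [h3]
    rfl
  constructor
  · rw [key 0]
    have h2 : fderiv ℝ (fun q => gm a q 0) q = _ := h0.fderiv
    rw [h2]
    simp [pr_apply]
    ring
  · rw [key 1]
    have h2 : fderiv ℝ (fun q => gm a q 1) q = _ := h1.fderiv
    rw [h2]
    simp [pr_apply]
    ring

theorem dv_zero (x : ℝ) : dv 0 x = 1 := by simp [dv]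
theorem dv'_zero (x : ℝ) : dv' 0 x = 0 := rfl
theorem dv'_one (x : ℝ) : dv' 1 x = 1 := by simp [dv', dv]
theorem dv''_zero (x : ℝ) : dv'' 0 x = 0 := rfl
theorem dv''_one (x : ℝ) : dv'' 1 x = 0 := rfl

theorem dv_ne {k : ℕ} {x : ℝ} (hx : x ≠ 0) : dv k x ≠ 0 :=
  div_ne_zero (pow_ne_zero _ hx) (by exact_mod_cast k.factorial_ne_zero)

/-! ### Claim (ii) -/

variable {G I : Type} [Fintype G] [Fintype I] [DecidableEq G] [DecidableEq I]

/-- the weights -/
def ww (l1 l2 : ℝ) (idx : G → ℕ × ℕ) (wI : I → ℝ) : G ⊕ I → ℝ :=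
  Sum.elim (fun g => (idx g).1 * l1 + (idx g).2 * l2) wI

/-- **Claim (ii) of 4.6.** -/
theorem smooth_light {l1 l2 W₀ : ℝ} (h2 : 0 < l2) (h12 : l2 < l1) (hW₀ : 2 * l1 ≤ W₀)
    {idx : G → ℕ × ℕ} (hinj : Function.Injective idx) (hne : ∀ g, idx g ≠ (0, 0))
    {e0 e1 : G} (he0 : idx e0 = (1, 0)) (he1 : idx e1 = (0, 1))
    {wI : I → ℝ} (hwI : ∀ i, 0 < wI i)
    {V : Set P2} {P : P2 → G ⊕ I → Polynomial ℝ}
    (hT0 : ∀ y ∈ V, (P y (.inl e0)).eval 0 = y 0) (hT1 : ∀ y ∈ V, (P y (.inl e1)).eval 0 = y 1)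
    (hy1 : ∃ y ∈ V, y 1 ≠ 0) (hy0 : ∃ y ∈ V, y 1 = 0 ∧ y 0 ≠ 0)
    -- the additional variables are products of at least two jets
    (hI : ∀ i, (∀ g, ww l1 l2 idx wI (.inl g) < wI i →
        ContDiffOn ℝ ∞ (fun y => (P y (.inl g)).eval 0) V) →
      ContDiffOn ℝ ∞ (fun y => (P y (.inr i)).eval 0) V)
    (hI0 : ∀ i, ∀ y ∈ V, (∀ g, ww l1 l2 idx wI (.inl g) < wI i → (P y (.inl g)).eval 0 = 0) →
      (P y (.inr i)).eval 0 = 0)
    -- smooth jets of weight `< λ₁` vanish on the strong axis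
    (hax : ∀ g, ww l1 l2 idx wI (.inl g) < l1 →
      ContDiffOn ℝ ∞ (fun y => (P y (.inl g)).eval 0) V →
      ∀ y ∈ V, y 1 = 0 → (P y (.inl g)).eval 0 = 0)
    -- the formal leaves
    {Φ : (G ⊕ I → ℝ) × P2 → P2} {κ ζ h : P2 → P2} (hκ : ContDiffAt ℝ ∞ κ 0)
    (hζ : ContDiffAt ℝ ∞ ζ 0) (hh : ContDiffAt ℝ ∞ h 0)
    (hΦ : ContDiffAt ℝ ∞ Φ (0, κ 0)) (h0 : ∀ᶠ q in 𝓝 (κ 0), Φ (0, q) = 0)
    (hlin : ∀ g, ∀ᶠ q in 𝓝 (κ 0), fderiv ℝ Φ (0, q) (Pi.single (.inl g) 1, 0) = gm (idx g) q)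
    (hx : κ 0 1 ≠ 0) (hζ1 : ζ 0 1 ≠ 0)
    -- the relation satisfied by the true leaves
    (htrue : ∀ y ∈ V, ∃ (pn : ℕ → P2) (A : ℕ → P2 →L[ℝ] P2) (ε : ℕ → ℝ),
      (∀ W < W₀, Tendsto (fun n : ℕ => Real.exp (W * n) * ε n) atTop (𝓝 0)) ∧
      Tendsto pn atTop (𝓝 0) ∧
      (∀ᶠ n in atTop, ‖pn n - Φ (tn (ww l1 l2 idx wI) (P y) n, κ (pn n))‖ ≤ ε n) ∧
      (∀ᶠ n in atTop, ∀ v, ‖A n v - fderiv ℝ Φ (tn (ww l1 l2 idx wI) (P y) n, κ (pn n)) (0, v)‖ ≤
        ε n * ‖v‖) ∧
      ∀ᶠ n in atTop, A n (ζ (pn n)) = h (pn n)) :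
    ∀ g, ww l1 l2 idx wI (.inl g) < 2 * l1 →
      ContDiffOn ℝ ∞ (fun y => (P y (.inl g)).eval 0) V := by
  classical
  set w := ww l1 l2 idx wI with hwdef
  have hl1 : 0 < l1 := h2.trans h12
  have hwg : ∀ g, w (.inl g) = (idx g).1 * l1 + (idx g).2 * l2 := fun g => rfl
  have hwi : ∀ i, w (.inr i) = wI i := fun i => rfl
  have hwge : ∀ g, l2 ≤ w (.inl g) := by
    intro g
    rw [hwg]
    rcases Nat.eq_zero_or_pos (idx g).1 with h1 | h1
    · have h3 : (idx g).2 ≠ 0 := fun h3 => hne g (Prod.ext h1 h3)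
      have h4 : (1 : ℝ) ≤ (idx g).2 := by exact_mod_cast Nat.one_le_iff_ne_zero.2 h3
      rw [h1]
      push_cast
      nlinarith
    · have h4 : (1 : ℝ) ≤ (idx g).1 := by exact_mod_cast h1
      have h5 : (0 : ℝ) ≤ (idx g).2 := Nat.cast_nonneg _
      nlinarith
  have hw : ∀ a, 0 < w a := by
    rintro (g | i)
    · exact h2.trans_le (hwge g)
    · exact hwI i
  -- `F`
  set F : Fin 2 → (G ⊕ I → ℝ) × P2 → ℝ := fun c z =>
    (fderiv ℝ Φ (z.1, κ z.2) (0, ζ z.2) - h z.2) c with hFdef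
  have hζ2 : ContDiffAt ℝ ∞ (fun z : (G ⊕ I → ℝ) × P2 => ζ z.2) (0, 0) :=
    ContDiffAt.comp (0, 0) (g := ζ) (f := fun z : (G ⊕ I → ℝ) × P2 => z.2) hζ contDiffAt_snd
  have hκ2 : ContDiffAt ℝ ∞ (fun z : (G ⊕ I → ℝ) × P2 => κ z.2) (0, 0) :=
    ContDiffAt.comp (0, 0) (g := κ) (f := fun z : (G ⊕ I → ℝ) × P2 => z.2) hκ contDiffAt_snd
  have hh2 : ContDiffAt ℝ ∞ (fun z : (G ⊕ I → ℝ) × P2 => h z.2) (0, 0) :=
    ContDiffAt.comp (0, 0) (g := h) (f := fun z : (G ⊕ I → ℝ) × P2 => z.2) hh contDiffAt_snd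
  have hS : ContDiffAt ℝ ∞ (fun z : (G ⊕ I → ℝ) × P2 => fderiv ℝ Φ (z.1, κ z.2) (0, ζ z.2))
      (0, 0) := by
    have h1 : ContDiffAt ℝ ∞ (fderiv ℝ Φ) (0, κ 0) := hΦ.fderiv_right (by simp)
    have h3 : ContDiffAt ℝ ∞ (fun z : (G ⊕ I → ℝ) × P2 => fderiv ℝ Φ (z.1, κ z.2)) (0, 0) :=
      ContDiffAt.comp (0, 0) (g := fderiv ℝ Φ) (f := fun z : (G ⊕ I → ℝ) × P2 => (z.1, κ z.2))
        h1 (contDiffAt_fst.prodMk hκ2)
    exact h3.clm_apply (contDiffAt_const.prodMk hζ2)
  have hF : ∀ c, ContDiffAt ℝ ∞ (F c) (0, 0) := fun c =>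
    (pr c).contDiff.contDiffAt.comp (0, 0) (hS.sub hh2)
  -- coefficients of the linear terms
  have hcoef : ∀ c g, fderiv ℝ (F c) (0, 0) (Pi.single (.inl g) 1,
      fderiv ℝ Φ (0, κ 0) (Pi.single (.inl g) 1, 0)) =
        (fderiv ℝ (gm (idx g)) (κ 0) (ζ 0)) c - (fderiv ℝ h 0 (gm (idx g) (κ 0))) c := by
    intro c g
    rw [(hlin g).self_of_nhds]
    have h1 : HasFDerivAt (F c) ((pr c) ∘L (fderiv ℝ (fun z : (G ⊕ I → ℝ) × P2 =>
        fderiv ℝ Φ (z.1, κ z.2) (0, ζ z.2)) (0, 0) -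
        fderiv ℝ h 0 ∘L ContinuousLinearMap.snd ℝ (G ⊕ I → ℝ) P2)) (0, 0) := by
      refine (pr c).hasFDerivAt.comp (0, 0) (HasFDerivAt.sub
        (hS.differentiableAt (by simp)).hasFDerivAt ?_)
      exact HasFDerivAt.comp (0, 0) (g := h) (f := fun z : (G ⊕ I → ℝ) × P2 => z.2)
        (hh.differentiableAt (by simp)).hasFDerivAt hasFDerivAt_snd
    rw [h1.fderiv]
    simp only [ContinuousLinearMap.comp_apply, sub_apply, ContinuousLinearMap.coe_snd', pr_apply]
    rw [fderiv_slope_pt (hκ.differentiableAt (by simp)) (hζ.differentiableAt (by simp)) hΦ h0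
      (hlin g)]
    rfl
  choose pF hpF0 hpF1 hpF using fun c => princ_leaf hw W₀ hκ hΦ h0 (hF c)
  -- the identities
  have hid : ∀ c, ∀ y ∈ V, ∀ W < W₀, W ≠ 0 →
      (∑ a ∈ Finset.univ.filter (fun a => w a = W), (pF c).coeff (Finsupp.single a 1) *
        (P y a).eval 0) + npart w (pF c) W (fun a => (P y a).eval 0) = 0 := by
    intro c y hy W hW hW0
    rw [← wpart_eq hw (pF c) hW0 (fun a => (P y a).eval 0)]
    obtain ⟨pn, A, ε, hε, hpn, h1, h3, h4⟩ := htrue y hy
    -- bound of `ζ`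
    have hζb : ∀ᶠ n in atTop, ‖ζ (pn n)‖ ≤ ‖ζ 0‖ + 1 := by
      have h5 : Tendsto (fun n => ‖ζ (pn n)‖) atTop (𝓝 ‖ζ 0‖) :=
        (hζ.continuousAt.tendsto.comp hpn).norm
      exact (h5.eventually (ge_mem_nhds (by linarith : ‖ζ 0‖ < ‖ζ 0‖ + 1)))
    refine hpF c (P y) pn ε (‖ζ 0‖ + 1) hε hpn h1 ?_ W hW
    filter_upwards [h1, h3, h4, hζb] with n g1 g3 g4 g5
    have hε0 : 0 ≤ ε n := (norm_nonneg _).trans g1
    have g6 : F c (tn w (P y) n, pn n) =
        -((A n (ζ (pn n)) - fderiv ℝ Φ (tn w (P y) n, κ (pn n)) (0, ζ (pn n))) c) := by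
      rw [g4]
      simp [hFdef]
    rw [g6, abs_neg]
    calc |(A n (ζ (pn n)) - fderiv ℝ Φ (tn w (P y) n, κ (pn n)) (0, ζ (pn n))) c|
        ≤ ‖A n (ζ (pn n)) - fderiv ℝ Φ (tn w (P y) n, κ (pn n)) (0, ζ (pn n))‖ :=
          (Real.norm_eq_abs _).symm.le.trans (PiLp.norm_apply_le _ c)
      _ ≤ ε n * ‖ζ (pn n)‖ := g3 _
      _ ≤ (‖ζ 0‖ + 1) * ε n := by
          rw [mul_comm]
          exact mul_le_mul_of_nonneg_right g5 hε0
  -- names
  set D := fderiv ℝ h 0 with hD
  have hcf : ∀ c g, (pF c).coeff (Finsupp.single (.inl g) 1) =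
      (fderiv ℝ (gm (idx g)) (κ 0) (ζ 0)) c - (D (gm (idx g) (κ 0))) c := by
    intro c g
    rw [hpF1 c, hcoef]
  have hDlin : ∀ c, ∀ v : P2, (D v) c = v 0 * (D (EuclideanSpace.single 0 1)) c +
      v 1 * (D (EuclideanSpace.single 1 1)) c := by
    intro c v
    have h1 : v = v 0 • (EuclideanSpace.single 0 1 : P2) +
        v 1 • (EuclideanSpace.single 1 1 : P2) := by
      ext i
      fin_cases i <;> simp
    conv_lhs => rw [h1]
    simp
  -- Step 1: `D e₁ = 0`
  have hD1 : ∀ c, (D (EuclideanSpace.single 1 1)) c = 0 := by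
    intro c
    obtain ⟨y, hy, hy1⟩ := hy1
    have h1 := hid c y hy l2 (by linarith) h2.ne'
    have h3 : Finset.univ.filter (fun a => w a = l2) =
        insert (.inl e1) ((Finset.univ.filter (fun i : I => wI i = l2)).image Sum.inr) := by
      ext a
      rcases a with g | i
      · simp only [Finset.mem_filter, Finset.mem_univ, true_and, Finset.mem_insert, Sum.inl.injEq,
          Finset.mem_image, reduceCtorEq, and_false, exists_false, or_false]
        constructor
        · intro hg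
          rw [hwg] at hg
          have h4 : (idx g).1 = 0 := by
            by_contra h5
            have h6 : (1 : ℝ) ≤ (idx g).1 := by exact_mod_cast Nat.one_le_iff_ne_zero.2 h5
            have h7 : (0 : ℝ) ≤ (idx g).2 := Nat.cast_nonneg _
            nlinarith
          have h5 : (idx g).2 = 1 := by
            rw [h4] at hg
            have h6 : ((idx g).2 : ℝ) * l2 = 1 * l2 := by push_cast at hg; linarith
            have h7 := mul_right_cancel₀ h2.ne' h6
            exact_mod_cast h7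
          apply hinj
          rw [he1]
          exact Prod.ext h4 h5
        · rintro rfl
          rw [hwg, he1]
          simp
      · simp [hwi]
    rw [h3, Finset.sum_insert (by simp)] at h1
    have h4 : ∀ i : I, wI i = l2 → (P y (.inr i)).eval 0 = 0 := by
      intro i hi
      apply hI0 i y hy
      intro g hg
      have := hwge g
      rw [hi] at hg
      exact absurd hg (not_lt.2 this)
    have h5 : ∑ x ∈ (Finset.univ.filter (fun i : I => wI i = l2)).image Sum.inr,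
        (pF c).coeff (Finsupp.single x 1) * (P y x).eval 0 = 0 := by
      refine Finset.sum_eq_zero fun x hx => ?_
      rw [Finset.mem_image] at hx
      obtain ⟨i, hi, rfl⟩ := hx
      rw [Finset.mem_filter] at hi
      rw [h4 i hi.2, mul_zero]
    have h6 : npart w (pF c) l2 (fun a => (P y a).eval 0) = 0 := by
      apply npart_eq_zero hw
      rintro (g | i) hlt
      · exact absurd hlt (not_lt.2 (hwge g))
      · apply hI0 i y hy
        intro g hg
        exact absurd (hg.trans hlt) (not_lt.2 (hwge g))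
    rw [h5, h6, hT1 y hy, hcf, he1, hDlin] at h1
    have h7 := fderiv_gm (0, 1) (κ 0) (ζ 0)
    have h8 : (fderiv ℝ (gm (0, 1)) (κ 0) (ζ 0)) c = 0 := by
      fin_cases c
      · exact h7.1.trans (by simp [dv''_zero, dv'_zero])
      · exact h7.2.trans (by simp [dv''_one, dv'_zero])
    rw [h8, gm_zero, gm_one] at h1
    simp only [dv'_zero, dv'_one, dv_zero] at h1
    have h9 : (D (EuclideanSpace.single 1 1)) c * y 1 = 0 := by linarith
    exact (mul_eq_zero.1 h9).resolve_right hy1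
  -- Step 2: `(D e₀)₀ = 0`
  have hD0 : (∀ g, w (.inl g) < l1 → ContDiffOn ℝ ∞ (fun y => (P y (.inl g)).eval 0) V) →
      (D (EuclideanSpace.single 0 1)) 0 = 0 := by
    intro hsm
    obtain ⟨y, hy, hy1, hy0⟩ := hy0
    have h1 := hid 0 y hy l1 (by linarith) hl1.ne'
    have hz : ∀ g, w (.inl g) < l1 → (P y (.inl g)).eval 0 = 0 := fun g hg =>
      hax g hg (hsm g hg) y hy hy1
    have h6 : npart w (pF 0) l1 (fun a => (P y a).eval 0) = 0 := by
      apply npart_eq_zero hw
      rintro (g | i) hlt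
      · exact hz g hlt
      · exact hI0 i y hy fun g hg => hz g (hg.trans hlt)
    rw [h6, add_zero] at h1
    rw [Finset.sum_eq_single (.inl e0)] at h1
    · rw [hT0 y hy, hcf, he0, hDlin] at h1
      have h7 := (fderiv_gm (1, 0) (κ 0) (ζ 0)).1
      rw [h7, gm_zero, gm_one, hD1] at h1
      simp only [dv'_zero, dv'_one, dv_zero, dv''_one] at h1
      have h9 : (D (EuclideanSpace.single 0 1)) 0 * y 0 = 0 := by linarith
      exact (mul_eq_zero.1 h9).resolve_right hy0
    · rintro (g | i) hg hne'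
      · -- `idx g = (0, k)`
        simp only [Finset.mem_filter, Finset.mem_univ, true_and] at hg
        have h8 : (idx g).1 = 0 := by
          by_contra h9
          have h10 : (1 : ℝ) ≤ (idx g).1 := by exact_mod_cast Nat.one_le_iff_ne_zero.2 h9
          rw [hwg] at hg
          have h11 : (0 : ℝ) ≤ (idx g).2 := Nat.cast_nonneg _
          have h12 : (idx g).2 = 0 := by
            by_contra h13
            have h14 : (1 : ℝ) ≤ (idx g).2 := by exact_mod_cast Nat.one_le_iff_ne_zero.2 h13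
            nlinarith
          have h13 : (idx g).1 = 1 := by
            rw [h12] at hg
            have h6 : ((idx g).1 : ℝ) * l1 = 1 * l1 := by push_cast at hg; linarith
            have h7 := mul_right_cancel₀ hl1.ne' h6
            exact_mod_cast h7
          apply hne'
          congr 1
          apply hinj
          rw [he0]
          exact Prod.ext h13 h12
        rw [hcf, (fderiv_gm (idx g) (κ 0) (ζ 0)).1, hDlin, gm_zero, gm_one, h8, hD1]
        simp [dv''_zero, dv'_zero]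
      · simp only [Finset.mem_filter, Finset.mem_univ, true_and, hwi] at hg
        rw [hI0 i y hy fun g hg' => hz g (by rw [← hg]; exact hg'), mul_zero]
    · intro hn
      exact absurd (by simp [hwg, he0]) hn
  -- Step 3, 4: the induction
  by_contra hcon
  push Not at hcon
  obtain ⟨g₁, hg₁, hg₁'⟩ := hcon
  obtain ⟨g, hg, hmin⟩ := Finset.exists_min_image
    (Finset.univ.filter fun g => w (.inl g) < 2 * l1 ∧
      ¬ ContDiffOn ℝ ∞ (fun y => (P y (.inl g)).eval 0) V) (fun g => w (.inl g))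
    ⟨g₁, by simp only [Finset.mem_filter, Finset.mem_univ, true_and]; exact ⟨hg₁, hg₁'⟩⟩
  simp only [Finset.mem_filter, Finset.mem_univ, true_and] at hg hmin
  obtain ⟨hgl, hgn⟩ := hg
  -- everything lighter is smooth
  have hsm : ∀ g', w (.inl g') < w (.inl g) →
      ContDiffOn ℝ ∞ (fun y => (P y (.inl g')).eval 0) V := by
    intro g' hg'
    by_contra hn
    exact absurd (hmin g' ⟨hg'.trans hgl, hn⟩) (not_le.2 hg')
  have hsmI : ∀ i, wI i ≤ w (.inl g) →
      ContDiffOn ℝ ∞ (fun y => (P y (.inr i)).eval 0) V := fun i hi =>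
    hI i fun g' hg' => hsm g' (hg'.trans_le hi)
  have hsmall : ∀ a, w a < w (.inl g) → ContDiffOn ℝ ∞ (fun y => (P y a).eval 0) V := by
    rintro (g' | i) ha
    · exact hsm g' ha
    · exact hsmI i ha.le
  have hnp : ∀ c, ContDiffOn ℝ ∞ (fun y => npart w (pF c) (w (.inl g))
      (fun a => (P y a).eval 0)) V := fun c =>
    contDiffOn_npart hw (pF c) (T := fun y a => (P y a).eval 0) hsmall
  -- conclusion from a relation
  have hconc : ∀ (g' : G) (c : Fin 2), w (.inl g') = w (.inl g) →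
      (pF c).coeff (Finsupp.single (.inl g') 1) ≠ 0 →
      (∀ g'', w (.inl g'') = w (.inl g) → g'' ≠ g' →
        (pF c).coeff (Finsupp.single (.inl g'') 1) = 0 ∨
        ContDiffOn ℝ ∞ (fun y => (P y (.inl g'')).eval 0) V) →
      ContDiffOn ℝ ∞ (fun y => (P y (.inl g')).eval 0) V := by
    intro g' c hg' hc hoth
    set s := Finset.univ.filter (fun a => w a = w (.inl g)) with hs
    have hmem : (.inl g' : G ⊕ I) ∈ s := by simp [hs, hg']
    have h1 : ∀ y ∈ V, (P y (.inl g')).eval 0 =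
        -((pF c).coeff (Finsupp.single (.inl g') 1))⁻¹ *
        ((∑ a ∈ s.erase (.inl g'), (pF c).coeff (Finsupp.single a 1) * (P y a).eval 0) +
          npart w (pF c) (w (.inl g)) (fun a => (P y a).eval 0)) := by
      intro y hy
      have h3 := hid c y hy (w (.inl g)) (hgl.trans_le hW₀) (hw _).ne'
      rw [← Finset.add_sum_erase _ _ hmem] at h3
      field_simp
      linarith
    refine ContDiffOn.congr ?_ h1
    refine contDiffOn_const.mul (ContDiffOn.add (ContDiffOn.sum fun a ha => ?_) (hnp c))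
    rw [Finset.mem_erase] at ha
    obtain ⟨hne', ha⟩ := ha
    simp only [hs, Finset.mem_filter, Finset.mem_univ, true_and] at ha
    rcases a with g'' | i
    · rcases hoth g'' ha (fun h => hne' (by rw [h])) with h3 | h3
      · simp only [h3, zero_mul]
        exact contDiffOn_const
      · exact contDiffOn_const.mul h3
    · exact contDiffOn_const.mul (hsmI i (by rw [← hwi i, ha]))
  -- the first index is `0` or `1`
  have hidx : ∀ g', w (.inl g') < 2 * l1 → (idx g').1 = 0 ∨ (idx g').1 = 1 := by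
    intro g' hg'
    by_contra hn
    push Not at hn
    have h3 : (2 : ℝ) ≤ (idx g').1 := by
      have : 2 ≤ (idx g').1 := by omega
      exact_mod_cast this
    rw [hwg] at hg'
    have h4 : (0 : ℝ) ≤ (idx g').2 := Nat.cast_nonneg _
    nlinarith
  -- jets `(1, j)` of the weight of `g`
  have h1j : ∀ g', w (.inl g') = w (.inl g) → (idx g').1 = 1 →
      ContDiffOn ℝ ∞ (fun y => (P y (.inl g')).eval 0) V := by
    intro g' hg' h1
    rcases Nat.eq_zero_or_pos (idx g').2 with hj | hj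
    · have h3 : g' = e0 := hinj (by rw [he0]; exact Prod.ext h1 hj)
      subst h3
      refine ContDiffOn.congr ?_ hT0
      exact (pr 0).contDiff.contDiffOn
    · obtain ⟨j, hj'⟩ := Nat.exists_eq_succ_of_ne_zero hj.ne'
      have hlt : l1 < w (.inl g) := by
        rw [← hg', hwg, h1, hj']
        push_cast
        nlinarith
      have hD00 := hD0 fun g'' hg'' => hsm g'' (hg''.trans hlt)
      apply hconc g' 0 hg'
      · rw [hcf, (fderiv_gm (idx g') (κ 0) (ζ 0)).1, hDlin, gm_zero, gm_one, h1, hj', hD1, hD00]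
        simp only [dv''_one, dv', dv_zero]
        have h5 := dv_ne (k := j) hx
        simp only [mul_zero, zero_mul, add_zero, sub_zero, zero_add, one_mul]
        exact mul_ne_zero h5 hζ1
      · intro g'' hg'' hne'
        left
        rcases hidx g'' (by rw [hg'']; exact hgl) with h5 | h5
        · rw [hcf, (fderiv_gm (idx g'') (κ 0) (ζ 0)).1, hDlin, gm_zero, gm_one, h5, hD1]
          simp [dv''_zero, dv'_zero]
        · exfalso
          apply hne'
          apply hinj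
          refine Prod.ext (by rw [h5, h1]) ?_
          have h6 : w (.inl g'') = w (.inl g') := by rw [hg'', hg']
          rw [hwg, hwg, h5, h1] at h6
          have h7 : ((idx g'').2 : ℝ) * l2 = (idx g').2 * l2 := by linarith
          have h8 := mul_right_cancel₀ h2.ne' h7
          exact_mod_cast h8
  rcases hidx g hgl with h5 | h5
  · -- `(0, k)`
    rcases Nat.lt_or_ge (idx g).2 2 with hk | hk
    · have hk1 : (idx g).2 = 1 := by
        have : (idx g).2 ≠ 0 := fun h => hne g (Prod.ext h5 h)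
        omega
      have h3 : g = e1 := hinj (by rw [he1]; exact Prod.ext h5 hk1)
      subst h3
      apply hgn
      refine ContDiffOn.congr ?_ hT1
      exact (pr 1).contDiff.contDiffOn
    · obtain ⟨k, hk'⟩ : ∃ k, (idx g).2 = k + 2 := ⟨(idx g).2 - 2, by omega⟩
      apply hgn
      apply hconc g 1 rfl
      · rw [hcf, (fderiv_gm (idx g) (κ 0) (ζ 0)).2, hDlin, gm_zero, gm_one, h5, hk', hD1]
        simp only [dv_zero, dv'', dv']
        have h6 := dv_ne (k := k) hx
        simp only [mul_zero, zero_mul, add_zero, sub_zero, zero_add, one_mul]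
        exact mul_ne_zero h6 hζ1
      · intro g'' hg'' hne'
        rcases hidx g'' (by rw [hg'']; exact hgl) with h7 | h7
        · exfalso
          apply hne'
          apply hinj
          refine Prod.ext (by rw [h5, h7]) ?_
          have h6 : w (.inl g'') = w (.inl g) := hg''
          rw [hwg, hwg, h5, h7] at h6
          have h8 : ((idx g'').2 : ℝ) * l2 = (idx g).2 * l2 := by linarith
          have h9 := mul_right_cancel₀ h2.ne' h8
          exact_mod_cast h9
        · right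
          exact h1j g'' hg'' h7
  · exact hgn (h1j g rfl h5)

end Vale.Agent.P207.N3.H547
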