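import Vale.Agent.P207.N3.H547.LightPF
import Vale.Agent.P207.N3.H639.HStrF
import Vale.Agent.P207.N3.H12.PFX

/-!
# P207, N3, P17 (ii): all light jets of the leaves are smooth (helper547)
-/

open Set Filter Topology Metric
open scoped ContDiff

noncomputable section

namespace Vale.Agent.P207.N3.H547

open H254 H70 H578 P207N3H639

theorem two_le_of_lt {μ₁ μ₂ a : ℝ} {k : ℕ} (hOK : (H790.NF.tri μ₁ μ₂ a k).OK)
    (hlt : |μ₂| < |μ₁|) : a ≠ 0 → 2 ≤ k := by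
  intro ha
  obtain ⟨h1, h2⟩ := hOK.2.2 ha
  by_contra h
  have hk : k = 1 := by omega
  rw [hk, pow_one] at h2
  rw [h2] at hlt
  exact lt_irrefl _ hlt

/-- **Claim (ii) of 4.6.** If the product formula has regular leaves near `0`, all corrected jets
`T^_c` of the leaves, of weight `κ c₁ + ℓ c₂ < 2 κ`, are smooth functions near `0`. -/
theorem light_feed {D : PF} {μ₁ μ₂ a a' : ℝ} {k k' : ℕ} {κ ℓ : ℝ}
    (hlt : |μ₂| < |μ₁|) (hκ : |μ₁| = Real.exp κ) (hℓ : |μ₂| = Real.exp ℓ)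
    (hOK : (H790.NF.tri μ₁ μ₂ a k).OK)
    (hN : ∀ᶠ q in 𝓝 (0 : E2), D.Y.N q = (H790.NF.tri μ₁ μ₂ a k).fn q)
    (hOK' : (H790.NF.tri μ₁ μ₂ a' k').OK)
    (hM : ∀ᶠ p in 𝓝 (0 : E2), D.Y.M p = (H790.NF.tri μ₁ μ₂ a' k').inv p)
    {K : ℕ} (hK : 1 ≤ K) (hKℓ : 2 * κ < (K + 1) * ℓ) (F : Feed D.Y κ ℓ K)
    (hreg : ∀ ε > 0, ∃ xs ∈ ball (0 : E2) ε, RegLeaf D xs) (c : ℕ × ℕ)
    (hc : κ * c.1 + ℓ * c.2 < 2 * κ) : ContDiffAt ℝ ∞ (F.side.v (Sum.inl c)) 0 := by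
  have h0 : 0 < ℓ := by
    have := hOK.1
    rw [hℓ] at this
    exact Real.one_lt_exp_iff.1 this
  have h12 : ℓ < κ := by
    rw [hκ, hℓ] at hlt
    exact Real.exp_lt_exp.1 hlt
  have T : TriE D.Y μ₁ μ₂ a k := ⟨hOK, two_le_of_lt hOK hlt, hN⟩
  obtain ⟨ε, hε, -, -, δ, hδ, -, b, hb, hb1, hStr⟩ := hStr_of_feed T hκ hℓ hK hKℓ F
  exact light_feed_of F hK h0 h12 hOK' hM hκ hε hδ hStr hreg c hc

/-- The same for the normal forms `SplitPF`. -/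
theorem light_split {D : PF} {μ₁ μ₂ a a' : ℝ} {k k' : ℕ} (hs : H12.SplitPF D μ₁ μ₂ a k a' k')
    {κ ℓ : ℝ} (hκ : |μ₁| = Real.exp κ) (hℓ : |μ₂| = Real.exp ℓ)
    {K : ℕ} (hK : 1 ≤ K) (hKℓ : 2 * κ < (K + 1) * ℓ) (F : Feed D.Y κ ℓ K)
    (hreg : ∀ ε > 0, ∃ xs ∈ ball (0 : E2) ε, RegLeaf D xs) (c : ℕ × ℕ)
    (hc : κ * c.1 + ℓ * c.2 < 2 * κ) : ContDiffAt ℝ ∞ (F.side.v (Sum.inl c)) 0 :=
  light_feed hs.lt hκ hℓ hs.ok (.of_forall hs.YN) hs.ok' (.of_forall hs.YM) hK hKℓ F hreg c hc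

end Vale.Agent.P207.N3.H547
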