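import Vale.Agent.P207.N3.H639.Sub
import Vale.Agent.P207.N3.H629.Rate
import Vale.Agent.P207.N3.H70.GE

/-!
# P207, N3, P17 (ii): the graded algebra of the corrected jets

`grH θ v b`: coefficients which are weighted homogeneous polynomials in the corrected jets `v`;
`strT_rep`: finite representation of structured sequences. (helper547)
-/

open Set Filter Topology Metric
open scoped ContDiff

noncomputable section

namespace Vale.Agent.P207.N3.H547

open P207N3H639

/-- A structured sequence is a finite sum of terms. -/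
theorem strT_rep {Y : Type*} {E : Type} [NormedAddCommGroup E] [NormedSpace ℝ E] {F : Type}
    [NormedAddCommGroup F] [NormedSpace ℝ F] {U : Set E} (hU : IsOpen U) {I : ℝ → Set (Y → ℝ)}
    {s : Y → ℕ → E → F} (hs : s ∈ StrT U I) :
    ∃ (ι : Type) (_ : Fintype ι) (_ : DecidableEq ι) (c : ι → Y → ℝ) (l : ι → ℝ)
      (P : ι → Polynomial ℝ) (ψ : ι → E → F), (∀ i, c i ∈ I (l i)) ∧ (∀ i, Sm U (ψ i)) ∧
      ∀ y n x, s y n x = ∑ i, trm (c i) (l i) (P i) (ψ i) y n x := by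
  classical
  induction hs using Submodule.span_induction with
  | mem s hs =>
    obtain ⟨c, l, P, ψ, hc, hψ, rfl⟩ := hs
    exact ⟨Unit, inferInstance, inferInstance, fun _ => c, fun _ => l, fun _ => P, fun _ => ψ,
      fun _ => hc, fun _ => hψ, fun y n x => by simp⟩
  | zero =>
    exact ⟨Empty, inferInstance, inferInstance, Empty.elim, Empty.elim, Empty.elim, Empty.elim,
      fun i => i.elim, fun i => i.elim, fun y n x => by simp⟩
  | add s t _ _ h1 h2 =>
    obtain ⟨ι, i1, i2, c, l, P, ψ, hc, hψ, hs⟩ := h1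
    obtain ⟨κ, k1, k2, d, m, Q, χ, hd, hχ, ht⟩ := h2
    refine ⟨ι ⊕ κ, inferInstance, inferInstance, Sum.elim c d, Sum.elim l m, Sum.elim P Q,
      Sum.elim ψ χ, ?_, ?_, ?_⟩
    · rintro (i | i)
      · exact hc i
      · exact hd i
    · rintro (i | i)
      · exact hψ i
      · exact hχ i
    · intro y n x
      rw [Fintype.sum_sum_type]
      simp only [Sum.elim_inl, Sum.elim_inr, Pi.add_apply, hs, ht]
  | smul a s _ h1 =>
    obtain ⟨ι, i1, i2, c, l, P, ψ, hc, hψ, hs⟩ := h1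
    refine ⟨ι, i1, i2, c, l, P, fun i x => a • ψ i x, hc, fun i => (hψ i).const_smul hU a, ?_⟩
    intro y n x
    simp only [Pi.smul_apply, hs, Finset.smul_sum, trm]
    exact Finset.sum_congr rfl fun i _ => smul_comm _ _ _

theorem Sm.contDiffOn {E : Type} [NormedAddCommGroup E] [NormedSpace ℝ E] {F : Type}
    [NormedAddCommGroup F] [NormedSpace ℝ F] {U : Set E} (hU : IsOpen U) {ψ : E → F}
    (h : Sm U ψ) : ContDiffOn ℝ ∞ ψ U := by
  rw [contDiffOn_infty]
  intro k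
  obtain ⟨C, -, h1⟩ := h k
  exact H629.bd_contDiffOn hU h1

/-! ### Weighted homogeneous polynomials in the corrected jets -/

/-- `c` is a polynomial in the variables `v`, all monomials have the multiplier `l` and degree
`≥ k` -/
def WH {G : Type} {Y : Type*} (θ : G → ℝ) (v : Y → G → ℝ) (k : ℕ) (l : ℝ) (c : Y → ℝ) : Prop :=
  ∃ p : MvPolynomial G ℝ, (∀ α ∈ p.support, H70.mult θ α = l ∧ k ≤ α.degree) ∧
    ∀ y, c y = MvPolynomial.eval (v y) p

theorem WH.mul {G : Type} {Y : Type*} {θ : G → ℝ} {v : Y → G → ℝ} {k k' : ℕ} {l m : ℝ}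
    {c d : Y → ℝ} (hc : WH θ v k l c) (hd : WH θ v k' m d) :
    WH θ v (k + k') (l * m) fun y => c y * d y := by
  classical
  obtain ⟨p, hp, hpe⟩ := hc
  obtain ⟨q, hq, hqe⟩ := hd
  refine ⟨p * q, fun α hα => ?_, fun y => by simp [hpe, hqe]⟩
  obtain ⟨β, hβ, γ, hγ, rfl⟩ := Finset.mem_add.1 (MvPolynomial.support_mul p q hα)
  refine ⟨?_, ?_⟩
  · rw [H70.mult_add, (hp β hβ).1, (hq γ hγ).1]
  · rw [map_add]
    exact add_le_add (hp β hβ).2 (hq γ hγ).2

theorem WH.mono {G : Type} {Y : Type*} {θ : G → ℝ} {v : Y → G → ℝ} {k k' : ℕ} {l : ℝ}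
    {c : Y → ℝ} (h : k' ≤ k) (hc : WH θ v k l c) : WH θ v k' l c :=
  let ⟨p, hp, hpe⟩ := hc
  ⟨p, fun α hα => ⟨(hp α hα).1, h.trans (hp α hα).2⟩, hpe⟩

theorem WH.var {G : Type} {Y : Type*} (θ : G → ℝ) (v : Y → G → ℝ) (g : G) :
    WH θ v 1 (θ g) fun y => v y g := by
  classical
  refine ⟨MvPolynomial.X g, fun α hα => ?_, fun y => by simp⟩
  rw [MvPolynomial.support_X, Finset.mem_singleton] at hα
  subst hα
  refine ⟨?_, ?_⟩
  · rw [H70.mult_single, pow_one]
  · rw [Finsupp.degree_single]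

/-- The graded data of the corrected jets. -/
def grH {G : Type} {Y : Type*} (θ : G → ℝ) (v : Y → G → ℝ) (b : ℝ) (hb : 0 < b) (hb1 : b < 1) :
    Gr Y where
  b := b
  b_pos := hb
  b_lt := hb1
  A l := {c | |l| ≤ 1 ∧ WH θ v 0 l c}
  P l := {c | |l| ≤ b ∧ WH θ v 1 l c}
  D l := {c | |l| ≤ b ∧ WH θ v 2 l c}
  one := by
    classical
    refine ⟨by simp, 1, fun α hα => ?_, fun y => by simp⟩
    have h1 : α = 0 := by
      by_contra h
      rw [MvPolynomial.mem_support_iff, MvPolynomial.coeff_one, if_neg (Ne.symm h)] at hα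
      exact hα rfl
    rw [h1]
    exact ⟨H70.mult_zero θ, Nat.zero_le _⟩
  P_le l c hc := ⟨hc.1.trans hb1.le, hc.2.mono (Nat.zero_le _)⟩
  D_le l c hc := ⟨hc.1, hc.2.mono (by norm_num)⟩
  A_one l c hc := hc.1
  P_b l c hc := hc.1
  AA l m c d hc hd := ⟨by
    rw [abs_mul]
    exact mul_le_one₀ hc.1 (abs_nonneg _) hd.1, (hc.2.mul hd.2).mono (Nat.zero_le _)⟩
  AP l m c d hc hd := ⟨by
    rw [abs_mul]
    calc |l| * |m| ≤ 1 * b := mul_le_mul hc.1 hd.1 (abs_nonneg _) zero_le_one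
      _ = b := one_mul b, (hc.2.mul hd.2).mono (by norm_num)⟩
  PP l m c d hc hd := ⟨by
    rw [abs_mul]
    calc |l| * |m| ≤ 1 * b := mul_le_mul (hc.1.trans hb1.le) hd.1 (abs_nonneg _) zero_le_one
      _ = b := one_mul b, hc.2.mul hd.2⟩
  AD l m c d hc hd := ⟨by
    rw [abs_mul]
    calc |l| * |m| ≤ 1 * b := mul_le_mul hc.1 hd.1 (abs_nonneg _) zero_le_one
      _ = b := one_mul b, (hc.2.mul hd.2).mono (by norm_num)⟩

/-! ### Multipliers -/

theorem mult_ne {G : Type} {θ : G → ℝ} (h0 : ∀ g, θ g ≠ 0) (α : G →₀ ℕ) : H70.mult θ α ≠ 0 := by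
  rw [H70.mult, Finsupp.prod]
  exact Finset.prod_ne_zero_iff.2 fun j _ => pow_ne_zero _ (h0 j)

theorem abs_mult_le_one {G : Type} {θ : G → ℝ} (h1 : ∀ g, |θ g| < 1) (α : G →₀ ℕ) :
    |H70.mult θ α| ≤ 1 := by
  rw [H70.mult, Finsupp.prod, Finset.abs_prod]
  refine Finset.prod_le_one (fun j _ => abs_nonneg _) fun j _ => ?_
  rw [abs_pow]
  exact pow_le_one₀ (abs_nonneg _) (h1 j).le

/-- A factor of a monomial of degree `≥ 2` is lighter than the monomial. -/
theorem abs_mult_lt {G : Type} {θ : G → ℝ} (h0 : ∀ g, θ g ≠ 0) (h1 : ∀ g, |θ g| < 1)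
    {α : G →₀ ℕ} (h2 : 2 ≤ α.degree) {g : G} (hg : g ∈ α.support) : |H70.mult θ α| < |θ g| := by
  classical
  have h3 : α = Finsupp.single g 1 + (α - Finsupp.single g 1) := by
    rw [add_tsub_cancel_of_le]
    rw [Finsupp.single_le_iff]
    exact Nat.one_le_iff_ne_zero.2 (Finsupp.mem_support_iff.1 hg)
  set β := α - Finsupp.single g 1 with hβ
  have h4 : β ≠ 0 := by
    intro h
    rw [h3, h, add_zero, Finsupp.degree_single] at h2
    norm_num at h2
  obtain ⟨j, hj⟩ := Finsupp.support_nonempty_iff.2 h4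
  have h5 : |H70.mult θ β| < 1 := by
    have h6 : β = Finsupp.single j 1 + (β - Finsupp.single j 1) := by
      rw [add_tsub_cancel_of_le]
      rw [Finsupp.single_le_iff]
      exact Nat.one_le_iff_ne_zero.2 (Finsupp.mem_support_iff.1 hj)
    rw [h6, H70.mult_add, H70.mult_single, pow_one, abs_mul]
    calc |θ j| * |H70.mult θ (β - Finsupp.single j 1)| ≤ |θ j| * 1 :=
          mul_le_mul_of_nonneg_left (abs_mult_le_one h1 _) (abs_nonneg _)
      _ < 1 := by rw [mul_one]; exact h1 j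
  rw [h3, H70.mult_add, H70.mult_single, pow_one, abs_mul]
  have h6 : 0 < |θ g| := abs_pos.2 (h0 g)
  calc |θ g| * |H70.mult θ β| < |θ g| * 1 := mul_lt_mul_of_pos_left h5 h6
    _ = |θ g| := mul_one _

end Vale.Agent.P207.N3.H547
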