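import Vale.Agent.P207.N3.H547.Reg
import Vale.Agent.P207.N3.H547.Rep

/-!
# P207, N3, P17 (ii): the light corrected jets are smooth

`light_hat`: over the product formula `D`, a regular leaf and an expansion (EL') of the leaves in
the corrected jets `v y g`, `g : G` (`idx g` the multiindex, `θ g` the multiplier):
`|θ g| > e^{-2 λ₁ l}` ⟹ `y ↦ v y g` is smooth. (helper547)
-/

open Set Filter Topology Metric
open scoped ContDiff Gradient

noncomputable section

set_option linter.unusedSectionVars false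

namespace Vale.Agent.P207.N3.H547

open P207N3H639 Vale.Agent.P207.N3

theorem gm_contDiff (a : ℕ × ℕ) : ContDiff ℝ ∞ (gm a) := by
  have h : ∀ k, ContDiff ℝ ∞ (dv k) := by
    intro k
    unfold dv
    fun_prop
  have h' : ∀ k, ContDiff ℝ ∞ (dv' k) := by
    intro k
    cases k with
    | zero => exact contDiff_const
    | succ k => exact h k
  have hp : ∀ i : Fin 2, ContDiff ℝ ∞ fun q : P2 => q i := fun i => (pr i).contDiff
  rw [contDiff_euclidean]
  intro i
  fin_cases i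
  · exact ((h' a.1).comp (hp 0)).mul ((h a.2).comp (hp 1))
  · exact ((h a.1).comp (hp 0)).mul ((h' a.2).comp (hp 1))

theorem exp_weight {l : ℝ} (hl : l ≠ 0) (n : ℕ) :
    Real.exp (-(-2 * Real.log |l|) * n) = l ^ (2 * n) := by
  have h1 : 0 < |l| := abs_pos.2 hl
  have h2 : -(-2 * Real.log |l|) * (n : ℝ) = ((2 * n : ℕ) : ℝ) * Real.log |l| := by
    push_cast
    ring
  rw [h2, ← Real.log_pow, Real.exp_log (pow_pos h1 _), pow_mul, pow_mul, sq_abs]

theorem M_zero (H : Half) : H.M 0 = 0 := by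
  rw [← H.b_axis 0 (mem_ball_self H.r_pos), H.b_zero 0 (mem_ball_self H.r_pos)]

/-- The errors of an expansion along a linear family. -/
theorem exists_eps {J : Type} [Fintype J] [DecidableEq J] {U : Set E2} {xs : E2} (hxU : xs ∈ U)
    {t1 : ℝ} (ht1 : 0 < t1) {f : ℕ → E2 → E2} {t : ℕ → J → ℝ} {ψ : J → E2 → E2}
    (hψ : ∀ j, ∀ q ∈ U, DifferentiableAt ℝ (ψ j) q)
    (hbd : ∀ ρ' : ℝ, t1 ^ 2 < ρ' → ∃ C : ℝ, 0 ≤ C ∧
      ∀ n : ℕ, Bd U 1 (fun q => f n q - linF ψ (t n, q)) (C * ρ' ^ (2 * n))) :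
    ∃ ε : ℕ → ℝ, (∀ W < 2 * (-2 * Real.log t1),
        Tendsto (fun n : ℕ => Real.exp (W * n) * ε n) atTop (𝓝 0)) ∧
      ∀ n, ∀ q ∈ U, ‖f n q - linF ψ (t n, q)‖ ≤ ε n ∧
        ∀ v, ‖fderiv ℝ (f n) q v - fderiv ℝ (linF ψ) (t n, q) (0, v)‖ ≤ ε n * ‖v‖ := by
  set e : ℕ → E2 → E2 := fun n q => f n q - linF ψ (t n, q) with he
  have hLd : ∀ (t : J → ℝ), ∀ q ∈ U, HasFDerivAt (fun q => linF ψ (t, q))
      (fderiv ℝ (linF ψ) (t, q) ∘L ContinuousLinearMap.inr ℝ (J → ℝ) E2) q := by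
    intro t q hq
    have h3 : DifferentiableAt ℝ (linF ψ) (t, q) := by
      unfold linF
      refine DifferentiableAt.fun_sum fun j _ => ?_
      refine DifferentiableAt.fun_smul ?_ ?_
      · fun_prop
      · exact DifferentiableAt.comp (t, q) (hψ j q hq) differentiableAt_snd
    exact HasFDerivAt.comp (f := fun q : E2 => (t, q)) q h3.hasFDerivAt
      (hasFDerivAt_prodMk_right t q)
  set ε : ℕ → ℝ := fun n => ⨆ q : U, max ‖e n q‖ ‖fderiv ℝ (e n) q‖ with hε
  have hε1 : ∀ n, ∀ q ∈ U, max ‖e n q‖ ‖fderiv ℝ (e n) q‖ ≤ ε n := by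
    intro n q hq
    obtain ⟨C, hC, h3⟩ := hbd (t1 ^ 2 + 1) (by linarith)
    refine le_ciSup (f := fun q : U => max ‖e n q‖ ‖fderiv ℝ (e n) q‖) ?_ ⟨q, hq⟩
    refine ⟨C * (t1 ^ 2 + 1) ^ (2 * n), ?_⟩
    rintro _ ⟨q', rfl⟩
    exact max_le ((h3 n).2.1 q' q'.2) ((h3 n).2.2.2 q' q'.2)
  have hε2 : ∀ ρ' : ℝ, t1 ^ 2 < ρ' → ∃ C : ℝ, 0 ≤ C ∧ ∀ n : ℕ, ε n ≤ C * ρ' ^ (2 * n) := by
    intro ρ' hρ'
    obtain ⟨C, hC, h3⟩ := hbd ρ' hρ'
    refine ⟨C, hC, fun n => ?_⟩
    have : Nonempty U := ⟨⟨xs, hxU⟩⟩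
    exact ciSup_le fun q' => max_le ((h3 n).2.1 q' q'.2) ((h3 n).2.2.2 q' q'.2)
  refine ⟨ε, ?_, ?_⟩
  · intro W hW
    have h3 : Real.exp W * (t1 ^ 2) ^ 2 < 1 := by
      have h4 : (t1 ^ 2) ^ 2 = Real.exp (-(2 * (-2 * Real.log t1))) := by
        rw [show -(2 * (-2 * Real.log t1)) = ((4 : ℕ) : ℝ) * Real.log t1 by push_cast; ring,
          ← Real.log_pow, Real.exp_log (pow_pos ht1 _)]
        ring
      rw [h4, ← Real.exp_add, Real.exp_lt_one_iff]
      linarith
    have h4 : Tendsto (fun r : ℝ => Real.exp W * (t1 ^ 2 + r) ^ 2) (𝓝[>] 0)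
        (𝓝 (Real.exp W * (t1 ^ 2 + 0) ^ 2)) :=
      ((by fun_prop : Continuous fun r : ℝ => Real.exp W * (t1 ^ 2 + r) ^ 2).tendsto 0).mono_left
        nhdsWithin_le_nhds
    rw [add_zero] at h4
    obtain ⟨r, h5, h6⟩ := ((h4.eventually (gt_mem_nhds h3)).and self_mem_nhdsWithin).exists
    obtain ⟨C, hC, h7⟩ := hε2 (t1 ^ 2 + r) (lt_add_of_pos_right _ h6)
    have h8 : Tendsto (fun n : ℕ => C * (Real.exp W * (t1 ^ 2 + r) ^ 2) ^ n) atTop (𝓝 0) := by
      have := (tendsto_pow_atTop_nhds_zero_of_lt_one (by positivity) h5).const_mul C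
      rwa [mul_zero] at this
    have hε0 : ∀ n, 0 ≤ ε n := fun n => (norm_nonneg _).trans ((le_max_left _ _).trans
      (hε1 n xs hxU))
    refine squeeze_zero (fun n => mul_nonneg (Real.exp_pos _).le (hε0 n)) (fun n => ?_) h8
    calc Real.exp (W * n) * ε n ≤ Real.exp (W * n) * (C * (t1 ^ 2 + r) ^ (2 * n)) :=
          mul_le_mul_of_nonneg_left (h7 n) (Real.exp_pos _).le
      _ = C * (Real.exp W * (t1 ^ 2 + r) ^ 2) ^ n := by
          rw [mul_pow, ← pow_mul, ← Real.exp_nat_mul, mul_comm W]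
          ring
  · intro n q hq
    have h3 := hε1 n q hq
    refine ⟨(le_max_left _ _).trans h3, fun u => ?_⟩
    obtain ⟨C, -, h4⟩ := hbd (t1 ^ 2 + 1) (by linarith)
    have h5 : HasFDerivAt (f n) (fderiv ℝ (e n) q +
        fderiv ℝ (linF ψ) (t n, q) ∘L ContinuousLinearMap.inr ℝ (J → ℝ) E2) q := by
      have h6 := (((h4 n).1 q hq).hasFDerivAt).add (hLd (t n) q hq)
      refine h6.congr_of_eventuallyEq (Eventually.of_forall fun q' => ?_)
      simp
    have h7 : fderiv ℝ (f n) q u - fderiv ℝ (linF ψ) (t n, q) (0, u) = fderiv ℝ (e n) q u := by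
      rw [h5.fderiv]
      simp
    rw [h7]
    exact (ContinuousLinearMap.le_opNorm _ _).trans
      (mul_le_mul_of_nonneg_right ((le_max_right _ _).trans h3) (norm_nonneg _))

/-- **Claim (ii) of 4.6 in the corrected jets.** -/
theorem light_hat {D : PF} {xs : E2} (hR : RegLeaf D xs) {G : Type} [Fintype G] [DecidableEq G]
    {idx : G → ℕ × ℕ} (hinj : Function.Injective idx) (hne : ∀ g, idx g ≠ (0, 0))
    {e0 e1 : G} (he0 : idx e0 = (1, 0)) (he1 : idx e1 = (0, 1))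
    {θ : G → ℝ} {t1 t2 : ℝ} (ht1 : 0 < t1) (h12 : t1 < t2) (ht2 : t2 < 1)
    (hθ : ∀ g, |θ g| = t1 ^ (idx g).1 * t2 ^ (idx g).2)
    {V : Set E2} (hVo : IsOpen V) (hV0 : (0 : E2) ∈ V)
    (hM0 : ∀ y ∈ V, Tendsto (fun n => D.Y.M^[n] y) atTop (𝓝 0))
    (hMs : ∀ y ∈ V, y 1 = 0 → ∃ C, ∀ n, ‖D.Y.M^[n] y‖ ≤ C * t1 ^ n)
    {v : E2 → G → ℝ} (hv0 : ∀ y ∈ V, v y e0 = y 0) (hv1 : ∀ y ∈ V, v y e1 = y 1)
    (hvQ : ∀ y ∈ V, ∀ g, ∃ Q : Polynomial ℝ, ∀ n : ℕ,
      v (D.Y.M^[n] y) g = θ g ^ n * Q.eval (n : ℝ))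
    {U : Set E2} (hU : IsOpen U) (hxU : xs ∈ U) {ρ : ℝ} (hρ : ρ ≤ t1 ^ 2) {b : ℝ} (hb : 0 < b)
    (hb1 : b < 1)
    (hStr : Str U (grH θ (fun y : V => v y) b hb hb1).D ρ (fun (y : V) n q =>
      ∇ (D.Y.S (D.Y.M^[n] y)) q - ∑ g, v (D.Y.M^[n] y) g • gm (idx g) q)) :
    ∀ g, t1 ^ 2 < |θ g| → ContDiffOn ℝ ∞ (fun y => v y g) V := by
  classical
  have ht2' : 0 < t2 := ht1.trans h12
  have ht11 : t1 < 1 := h12.trans ht2
  have hθ0 : ∀ g, θ g ≠ 0 := by
    intro g hg
    have h1 := hθ g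
    rw [hg, abs_zero] at h1
    exact (mul_pos (pow_pos ht1 _) (pow_pos ht2' _)).ne h1
  have hθ1 : ∀ g, |θ g| < 1 := by
    intro g
    rw [hθ]
    rcases Nat.eq_zero_or_pos (idx g).1 with h1 | h1
    · have h3 : (idx g).2 ≠ 0 := fun h3 => hne g (Prod.ext h1 h3)
      rw [h1, pow_zero, one_mul]
      exact pow_lt_one₀ ht2'.le ht2 h3
    · calc t1 ^ (idx g).1 * t2 ^ (idx g).2 ≤ t1 ^ (idx g).1 * 1 :=
            mul_le_mul_of_nonneg_left (pow_le_one₀ ht2'.le ht2.le) (pow_pos ht1 _).le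
        _ < 1 := by rw [mul_one]; exact pow_lt_one₀ ht1.le ht11 (by omega)
  set l1 : ℝ := -2 * Real.log t1 with hl1
  set l2 : ℝ := -2 * Real.log t2 with hl2
  have h2 : 0 < l2 := by
    have := Real.log_neg ht2' ht2
    rw [hl2]; linarith
  have h21 : l2 < l1 := by
    have := Real.log_lt_log ht1 h12
    rw [hl1, hl2]; linarith
  have hwθ : ∀ g, ((idx g).1 * l1 + (idx g).2 * l2 : ℝ) = -2 * Real.log |θ g| := by
    intro g
    rw [hθ, Real.log_mul (pow_pos ht1 _).ne' (pow_pos ht2' _).ne', Real.log_pow, Real.log_pow, hl1,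
      hl2]
    ring
  -- the expansion
  obtain ⟨s, hs, hos⟩ := hStr.mono_rate hρ
  obtain ⟨I, iI, dI, c, l, Pl, ψ, hc, hψ, hsum⟩ := strT_rep hU hs
  set ok : I → Prop := fun i => l i ≠ 0 ∧ |l i| < 1 with hok
  set wI : I → ℝ := fun i => if ok i then -2 * Real.log |l i| else 1 with hwI'
  have hwI : ∀ i, 0 < wI i := by
    intro i
    by_cases h : ok i
    · have h3 := Real.log_neg (abs_pos.2 h.1) h.2
      simp only [hwI', if_pos h]
      linarith
    · simp only [hwI', if_neg h]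
      norm_num
  set w := ww l1 l2 idx wI with hw
  have hwg : ∀ g, w (.inl g) = -2 * Real.log |θ g| := hwθ
  have hwi : ∀ i, w (.inr i) = wI i := fun i => rfl
  choose! Q hQ using hvQ
  set ct : I → E2 → ℝ := fun i y => if h : y ∈ V then c i ⟨y, h⟩ else 0 with hct
  set P : E2 → G ⊕ I → Polynomial ℝ := fun y => Sum.elim
    (fun g => (Q y g).comp (Polynomial.C 2 * Polynomial.X))
    (fun i => if ok i then Polynomial.C (ct i y) * (Pl i).comp (Polynomial.C 2 * Polynomial.X)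
      else 0) with hP
  -- values
  have hev : ∀ (R : Polynomial ℝ) (n : ℕ), (R.comp (Polynomial.C 2 * Polynomial.X)).eval (n : ℝ) =
      R.eval ((2 * n : ℕ) : ℝ) := by
    intro R n
    rw [Polynomial.eval_comp]
    simp
  have hev0 : ∀ (R : Polynomial ℝ), (R.comp (Polynomial.C 2 * Polynomial.X)).eval 0 =
      R.eval 0 := by
    intro R
    rw [Polynomial.eval_comp]
    simp
  have hPg : ∀ y ∈ V, ∀ g, (P y (.inl g)).eval 0 = v y g := by
    intro y hy g
    have h3 := hQ y hy g 0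
    simp only [Function.iterate_zero, id_eq, pow_zero, one_mul, Nat.cast_zero] at h3
    rw [h3]
    exact hev0 _
  have htg : ∀ y ∈ V, ∀ g n, tn w (P y) n (.inl g) = v (D.Y.M^[2 * n] y) g := by
    intro y hy g n
    rw [hQ y hy g (2 * n)]
    change Real.exp (-(w (.inl g)) * n) * ((Q y g).comp (Polynomial.C 2 * Polynomial.X)).eval
      (n : ℝ) = _
    rw [hwg, exp_weight (hθ0 g), hev]
  -- a term which is not ok is zero
  have hnok : ∀ i, ¬ ok i → c i = 0 := by
    intro i hi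
    obtain ⟨-, p, hp, hpe⟩ := hc i
    have h3 : p = 0 := by
      by_contra hp0
      obtain ⟨α, hα⟩ := MvPolynomial.support_nonempty.2 hp0
      obtain ⟨h4, h5⟩ := hp α hα
      apply hi
      refine ⟨by rw [← h4]; exact mult_ne hθ0 α, ?_⟩
      rw [← h4]
      have h6 : α ≠ 0 := by
        intro h6
        rw [h6] at h5
        simp at h5
      obtain ⟨g, hg⟩ := Finsupp.support_nonempty_iff.2 h6
      exact (abs_mult_lt hθ0 hθ1 h5 hg).trans (hθ1 g)
    funext y
    rw [hpe, h3]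
    simp
  have hti : ∀ (y : V) i n, tn w (P y) n (.inr i) =
      c i y * (l i ^ (2 * n) * (Pl i).eval ((2 * n : ℕ) : ℝ)) := by
    intro y i n
    change Real.exp (-(w (.inr i)) * n) * (if ok i then Polynomial.C (ct i y) *
      (Pl i).comp (Polynomial.C 2 * Polynomial.X) else 0 : Polynomial ℝ).eval (n : ℝ) = _
    by_cases h : ok i
    · rw [if_pos h, hwi]
      have h3 : wI i = -2 * Real.log |l i| := if_pos h
      have h4 : ct i y = c i y := dif_pos y.2
      rw [h3, exp_weight h.1, Polynomial.eval_mul, Polynomial.eval_C, hev, h4]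
      ring
    · rw [if_neg h, hnok i h]
      simp
  have hcl : ∀ i, ok i → ∀ y ∈ V, (P y (.inr i)).eval 0 = ct i y * (Pl i).eval 0 := by
    intro i hi y hy
    change (if ok i then Polynomial.C (ct i y) * (Pl i).comp (Polynomial.C 2 * Polynomial.X)
      else 0 : Polynomial ℝ).eval 0 = _
    rw [if_pos hi, Polynomial.eval_mul, Polynomial.eval_C, hev0]
  have hcl' : ∀ i, ¬ ok i → ∀ y, (P y (.inr i)).eval 0 = 0 := by
    intro i hi y
    change (if ok i then Polynomial.C (ct i y) * (Pl i).comp (Polynomial.C 2 * Polynomial.X)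
      else 0 : Polynomial ℝ).eval 0 = _
    rw [if_neg hi, Polynomial.eval_zero]
  -- factors of the products
  have hfac : ∀ i, ok i → ∃ p : MvPolynomial G ℝ, (∀ α ∈ p.support, ∀ g ∈ α.support,
      w (.inl g) < wI i) ∧ (∀ α ∈ p.support, α ≠ 0) ∧
      ∀ y ∈ V, ct i y = MvPolynomial.eval (v y) p := by
    intro i hi
    obtain ⟨-, p, hp, hpe⟩ := hc i
    refine ⟨p, fun α hα g hg => ?_, fun α hα h0 => ?_, fun y hy => ?_⟩
    · obtain ⟨h4, h5⟩ := hp α hα
      have h6 := abs_mult_lt hθ0 hθ1 h5 hg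
      rw [h4] at h6
      have h7 : wI i = -2 * Real.log |l i| := if_pos hi
      rw [hwg, h7]
      have h8 := Real.log_lt_log (abs_pos.2 hi.1) h6
      linarith
    · have h5 := (hp α hα).2
      rw [h0] at h5
      simp at h5
    · have h4 : ct i y = c i ⟨y, hy⟩ := dif_pos hy
      rw [h4, hpe]
  have hY1 : ∃ y ∈ V, y 1 ≠ 0 ∧ y 0 = 0 := by
    have h3 : Tendsto (fun t : ℝ => t • (EuclideanSpace.single (1 : Fin 2) (1 : ℝ) : E2)) (𝓝 0)
        (𝓝 ((0 : ℝ) • (EuclideanSpace.single (1 : Fin 2) (1 : ℝ) : E2))) := by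
      have h4 : Continuous fun t : ℝ => t • (EuclideanSpace.single (1 : Fin 2) (1 : ℝ) : E2) := by
        fun_prop
      exact h4.tendsto 0
    rw [zero_smul] at h3
    obtain ⟨t, h6, h7⟩ := (((h3.eventually (hVo.mem_nhds hV0)).filter_mono
      (nhdsWithin_le_nhds (s := {0}ᶜ))).and (self_mem_nhdsWithin)).exists
    exact ⟨_, h6, by simpa using h7, by simp⟩
  have hY0 : ∃ y ∈ V, y 1 = 0 ∧ y 0 ≠ 0 := by
    have h3 : Tendsto (fun t : ℝ => t • (EuclideanSpace.single (0 : Fin 2) (1 : ℝ) : E2)) (𝓝 0)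
        (𝓝 ((0 : ℝ) • (EuclideanSpace.single (0 : Fin 2) (1 : ℝ) : E2))) := by
      have h4 : Continuous fun t : ℝ => t • (EuclideanSpace.single (0 : Fin 2) (1 : ℝ) : E2) := by
        fun_prop
      exact h4.tendsto 0
    rw [zero_smul] at h3
    obtain ⟨t, h6, h7⟩ := (((h3.eventually (hVo.mem_nhds hV0)).filter_mono
      (nhdsWithin_le_nhds (s := {0}ᶜ))).and (self_mem_nhdsWithin)).exists
    exact ⟨_, h6, by simp, by simpa using h7⟩
  have hmain := light_pf hR (W₀ := 2 * l1) (P := P) (V := V) (wI := wI)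
    (ψ := Sum.elim (fun g => gm (idx g)) ψ) (yn := fun y n => D.Y.M^[2 * n] y) h2 h21 le_rfl hinj
    hne he0 he1 hwI ?_ ?_ ?_ hY0 ?_ ?_ ?_ ?_ ?_ ?_ (r' := (Metric.isOpen_iff.1 hU xs hxU).choose)
    (Metric.isOpen_iff.1 hU xs hxU).choose_spec.1 ?_
  · intro g hg
    have h3 : w (.inl g) < 2 * l1 := by
      rw [hwg, hl1]
      have h4 := Real.log_lt_log (pow_pos ht1 2) hg
      rw [Real.log_pow] at h4
      push_cast at h4
      linarith
    exact (hmain g h3).congr fun y hy => (hPg y hy g).symm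
  · intro y hy
    rw [hPg y hy, hv0 y hy]
  · intro y hy
    rw [hPg y hy, hv1 y hy]
  · obtain ⟨y, hy, h3, -⟩ := hY1
    exact ⟨y, hy, h3⟩
  · -- smoothness of the products
    intro i hsm
    by_cases hi : ok i
    · obtain ⟨p, hp1, -, hp3⟩ := hfac i hi
      have h3 : ContDiffOn ℝ ∞ (fun y => MvPolynomial.eval (v y) p * (Pl i).eval 0) V := by
        refine ContDiffOn.mul ?_ contDiffOn_const
        simp only [MvPolynomial.eval_eq]
        refine ContDiffOn.sum fun α hα => contDiffOn_const.mul ?_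
        refine contDiffOn_prod fun g hg => ContDiffOn.pow ?_ _
        exact (hsm g (hp1 α hα g hg)).congr fun y hy => (hPg y hy g).symm
      exact h3.congr fun y hy => by rw [hcl i hi y hy, hp3 y hy]
    · exact contDiffOn_const.congr fun y hy => hcl' i hi y
  · -- the products vanish with the factors
    intro i y hy hz
    by_cases hi : ok i
    · obtain ⟨p, hp1, hp2, hp3⟩ := hfac i hi
      rw [hcl i hi y hy, hp3 y hy, MvPolynomial.eval_eq, Finset.sum_eq_zero, zero_mul]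
      intro α hα
      obtain ⟨g, hg⟩ := Finsupp.support_nonempty_iff.2 (hp2 α hα)
      have h3 : v y g = 0 := by
        rw [← hPg y hy]
        exact hz g (hp1 α hα g hg)
      rw [Finset.prod_eq_zero hg, mul_zero]
      rw [h3, zero_pow (Finsupp.mem_support_iff.1 hg)]
    · exact hcl' i hi y
  · -- the strong axis
    intro g hg hsm y hy hy1
    have hsm' : ContDiffOn ℝ ∞ (fun y => v y g) V := hsm.congr fun y hy => (hPg y hy g).symm
    have hd : DifferentiableAt ℝ (fun y => v y g) 0 :=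
      ((hsm'.contDiffAt (hVo.mem_nhds hV0)).differentiableAt (by simp))
    have hz0 : v 0 g = 0 := by
      have h3 : ∀ n : ℕ, v 0 g = θ g ^ n * (Q 0 g).eval (n : ℝ) := by
        intro n
        have h4 := hQ 0 hV0 g n
        have h5 : D.Y.M^[n] 0 = 0 := Function.iterate_fixed (M_zero D.Y) n
        rw [h5] at h4
        exact h4
      have h4 : Tendsto (fun n : ℕ => θ g ^ n * (Q 0 g).eval (n : ℝ)) atTop (𝓝 0) := by
        obtain ⟨t, h5, h6⟩ := exists_between (hθ1 g)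
        obtain ⟨C, -, h7⟩ := poly_exp_bound (Q 0 g) h5
        have h8 : Tendsto (fun n : ℕ => C * t ^ n) atTop (𝓝 0) := by
          have := (tendsto_pow_atTop_nhds_zero_of_lt_one ((abs_nonneg _).trans h5.le) h6).const_mul C
          rwa [mul_zero] at this
        exact squeeze_zero_norm h7 h8
      exact tendsto_nhds_unique (tendsto_const_nhds.congr h3) h4
    obtain ⟨C, hC⟩ := hMs y hy hy1
    have h3 : (P y (.inl g)) = 0 := by
      refine axis_zero (w := w (.inl g)) (l1 := l1) hg (h2.trans h21) hd hz0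
        (z := fun n => D.Y.M^[2 * n] y) (C := C) ?_ ?_
      · refine Eventually.of_forall fun n => ?_
        refine (hC (2 * n)).trans (le_of_eq ?_)
        congr 1
        have h4 := exp_weight ht1.ne' n
        rw [abs_of_pos ht1] at h4
        rw [← h4]
      · refine Eventually.of_forall fun n => ?_
        rw [← htg y hy g n]
        rfl
    rw [h3, Polynomial.eval_zero]
  · -- smoothness of the coefficients
    rintro (g | i)
    · exact (gm_contDiff _).contDiffAt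
    · exact (Sm.contDiffOn hU (hψ i)).contDiffAt (hU.mem_nhds hxU)
  · intro g
    exact Eventually.of_forall fun q => rfl
  · intro y hy
    exact (hM0 y hy).comp (tendsto_id.const_mul_atTop' (by norm_num : 0 < 2))
  · -- the errors
    intro y hy
    have hbd : ∀ ρ' : ℝ, t1 ^ 2 < ρ' → ∃ C : ℝ, 0 ≤ C ∧ ∀ n : ℕ, Bd U 1 (fun q =>
        ∇ (D.Y.S (D.Y.M^[2 * n] y)) q -
          linF (Sum.elim (fun g => gm (idx g)) ψ) (tn w (P y) n, q)) (C * ρ' ^ (2 * n)) := by
      intro ρ' hρ'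
      obtain ⟨C, hC, h3⟩ := hos ⟨y, hy⟩ ρ' hρ' 1
      refine ⟨C, hC, fun n => ?_⟩
      refine (h3 (2 * n)).congr hU fun q _ => ?_
      have h4 : linF (Sum.elim (fun g => gm (idx g)) ψ) (tn w (P y) n, q) =
          ∑ g, v (D.Y.M^[2 * n] y) g • gm (idx g) q + s ⟨y, hy⟩ (2 * n) q := by
        rw [linF, Fintype.sum_sum_type, hsum]
        congr 1
        · refine Finset.sum_congr rfl fun g _ => ?_
          rw [← htg y hy g n]
          rfl
        · refine Finset.sum_congr rfl fun i _ => ?_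
          rw [trm, ← hti ⟨y, hy⟩ i n]
          rfl
      rw [h4, sub_add_eq_sub_sub]
    have hψd : ∀ j, ∀ q ∈ U, DifferentiableAt ℝ (Sum.elim (fun g => gm (idx g)) ψ j) q := by
      rintro (g | i) q hq
      · exact (gm_contDiff _).contDiffAt.differentiableAt (by simp)
      · exact (hψ i).diff hq
    obtain ⟨ε, hε1, hε2⟩ := exists_eps hxU ht1 hψd hbd
    refine ⟨ε, fun W hW => hε1 W hW, Eventually.of_forall fun n q hq => ?_⟩
    exact hε2 n q ((Metric.isOpen_iff.1 hU xs hxU).choose_spec.2 hq)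

end Vale.Agent.P207.N3.H547
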