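import Vale.Agent.P207.N3.H578.Dyn
import Vale.Agent.P207.N3.H547.LightHat

/-!
# P207, N3, P17 (ii): the `T`-variables of a feed (helper547)
-/

open Set Filter Topology Metric

noncomputable section

namespace Vale.Agent.P207.N3.H547

open H254 H70 H578

variable {H : Half} {κ ℓ : ℝ} {K : ℕ} (F : Feed H κ ℓ K)

/-- the indices of the jets of the leaves -/
def GT : Type := {j : F.J // ∃ a, F.lab j = Sum.inl a}

instance : Finite (GT F) := inferInstanceAs (Finite {j : F.J // ∃ a, F.lab j = Sum.inl a})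

instance : Fintype (GT F) := Fintype.ofFinite _

instance : DecidableEq (GT F) := Classical.decEq _

variable {F}

/-- the inclusion -/
def GT.ι (g : GT F) : F.J := g.1

theorem GT.ι_inj : Function.Injective (GT.ι (F := F)) := Subtype.val_injective

/-- the multiindex -/
def GT.ix (g : GT F) : ℕ × ℕ := g.2.choose

theorem GT.lab (g : GT F) : F.lab g.ι = Sum.inl g.ix := g.2.choose_spec

theorem GT.mem_range {j : F.J} {a : ℕ × ℕ} (h : F.lab j = Sum.inl a) :
    j ∈ range (GT.ι (F := F)) := ⟨⟨j, a, h⟩, rfl⟩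

theorem GT.ix_inj : Function.Injective (GT.ix (F := F)) := by
  intro g g' h
  apply GT.ι_inj
  apply F.lab_inj
  rw [g.lab, g'.lab, h]

/-- the multiplier -/
def GT.th (F : Feed H κ ℓ K) (g : GT F) : ℝ := F.S.θ g.ι

/-- the corrected jets -/
def tv (F : Feed H κ ℓ K) (y : E2) (g : GT F) : ℝ := F.v0 y g.ι

theorem GT.abs_th (g : GT F) :
    |GT.th F g| = Real.exp (-κ) ^ g.ix.1 * Real.exp (-ℓ) ^ g.ix.2 := by
  rw [GT.th, F.wt, g.lab, ← Real.exp_nat_mul, ← Real.exp_nat_mul, ← Real.exp_add]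
  congr 1
  simp only [wtl, Sum.elim_inl]
  ring

end Vale.Agent.P207.N3.H547
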