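import Mathlib

/-!
# P207, N3, P17: the point of intersection of a formal leaf with a fixed transversal leaf

`p = Pi (t, κ p)`: the leaf `p = Pi (t, q)` (`Pi (0, q) = 0`) meets the graph `q = κ p`. (helper547)
-/

open Set Filter Topology
open scoped ContDiff

noncomputable section

namespace Vale.Agent.P207.N3.H547

variable {T E : Type*} [NormedAddCommGroup T] [NormedSpace ℝ T] [CompleteSpace T]
  [NormedAddCommGroup E] [NormedSpace ℝ E] [CompleteSpace E]

/-- The formal point of intersection. -/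
theorem formal_pt {Pi : T × E → E} {κ : E → E} (hκ : ContDiffAt ℝ ∞ κ 0)
    (hPi : ContDiffAt ℝ ∞ Pi (0, κ 0)) (h0 : ∀ᶠ q in 𝓝 (κ 0), Pi (0, q) = 0) :
    ∃ pf : T → E, ContDiffAt ℝ ∞ pf 0 ∧ pf 0 = 0 ∧
      (∀ᶠ t in 𝓝 0, pf t = Pi (t, κ (pf t))) ∧
      fderiv ℝ pf 0 = fderiv ℝ Pi (0, κ 0) ∘L ContinuousLinearMap.inl ℝ T E ∧
      ∀ᶠ z : T × E in 𝓝 (0, 0), ‖z.2 - pf z.1‖ ≤ 2 * ‖z.2 - Pi (z.1, κ z.2)‖ := by
  set f : T × E → E := fun z => z.2 - Pi (z.1, κ z.2) with hf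
  have hκ' : ContDiffAt ℝ ∞ (fun z : T × E => κ z.2) (0, 0) :=
    ContDiffAt.comp (0, 0) (g := κ) (f := fun z : T × E => z.2) hκ contDiffAt_snd
  have hg : ContDiffAt ℝ ∞ (fun z : T × E => Pi (z.1, κ z.2)) (0, 0) :=
    ContDiffAt.comp (0, 0) (g := Pi) (f := fun z : T × E => (z.1, κ z.2)) hPi
      (contDiffAt_fst.prodMk hκ')
  have hcf : ContDiffAt ℝ ∞ f (0, 0) := contDiffAt_snd.sub hg
  have hPid : DifferentiableAt ℝ Pi (0, κ 0) := hPi.differentiableAt (by simp)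
  have hκd : DifferentiableAt ℝ κ 0 := hκ.differentiableAt (by simp)
  -- the derivative of `Pi` in the second variable vanishes
  have hP2 : ∀ v : E, fderiv ℝ Pi (0, κ 0) (0, v) = 0 := by
    intro v
    have h1 : HasFDerivAt (fun q : E => Pi (0, q))
        (fderiv ℝ Pi (0, κ 0) ∘L ContinuousLinearMap.inr ℝ T E) (κ 0) :=
      HasFDerivAt.comp (κ 0) (g := Pi) (f := fun q : E => ((0 : T), q)) hPid.hasFDerivAt
        (hasFDerivAt_prodMk_right 0 (κ 0))
    have h2 : HasFDerivAt (fun q : E => Pi (0, q)) (0 : E →L[ℝ] E) (κ 0) :=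
      (hasFDerivAt_const (0 : E) (κ 0)).congr_of_eventuallyEq h0
    have h3 := congrArg (fun L : E →L[ℝ] E => L v) (h1.unique h2)
    simpa using h3
  have hfd : HasFDerivAt f (ContinuousLinearMap.snd ℝ T E - fderiv ℝ Pi (0, κ 0) ∘L
      ((ContinuousLinearMap.fst ℝ T E).prod (fderiv ℝ κ 0 ∘L ContinuousLinearMap.snd ℝ T E)))
      (0, 0) := by
    apply HasFDerivAt.fun_sub hasFDerivAt_snd
    refine HasFDerivAt.comp (0, 0) (g := Pi) (f := fun z : T × E => (z.1, κ z.2))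
      hPid.hasFDerivAt ?_
    exact hasFDerivAt_fst.prodMk (HasFDerivAt.comp (0, 0) (g := κ) (f := fun z : T × E => z.2)
      hκd.hasFDerivAt hasFDerivAt_snd)
  have hinr : fderiv ℝ f (0, 0) ∘L ContinuousLinearMap.inr ℝ T E = ContinuousLinearMap.id ℝ E := by
    rw [hfd.fderiv]
    ext v
    simp [hP2]
  have hinl : fderiv ℝ f (0, 0) ∘L ContinuousLinearMap.inl ℝ T E =
      -(fderiv ℝ Pi (0, κ 0) ∘L ContinuousLinearMap.inl ℝ T E) := by
    rw [hfd.fderiv]
    ext v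
    simp
  have hinv : (fderiv ℝ f (0, 0) ∘L ContinuousLinearMap.inr ℝ T E).IsInvertible := by
    rw [hinr]
    exact ⟨ContinuousLinearEquiv.refl ℝ E, rfl⟩
  have hne : (∞ : WithTop ℕ∞) ≠ 0 := by simp
  have hf0 : f (0, 0) = 0 := by
    simp only [hf]
    rw [h0.self_of_nhds, sub_zero]
  set pf : T → E := hcf.implicitFunction hne hinv with hpf
  have hpf0 : pf 0 = 0 := hcf.implicitFunction_apply_self hne hinv
  have hpfc : ContDiffAt ℝ ∞ pf 0 := hcf.contDiffAt_implicitFunction hne hinv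
  have heq : ∀ᶠ t in 𝓝 (0 : T), f (t, pf t) = 0 := by
    have := hcf.eventually_apply_implicitFunction hne hinv
    rw [hf0] at this
    exact this
  refine ⟨pf, hpfc, hpf0, ?_, ?_, ?_⟩
  · filter_upwards [heq] with t ht
    exact sub_eq_zero.1 ht
  · have h1 := (hcf.hasStrictFDerivAt_implicitFunction hne hinv).hasFDerivAt.fderiv
    change fderiv ℝ pf 0 = _ at h1
    rw [h1, hinr, hinl]
    ext v
    simp
  · have hst := hcf.hasStrictFDerivAt hne
    have h1 := hst.isLittleO.def (c := 1 / 2) (by norm_num)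
    have h2 : Tendsto (fun z : T × E => ((z.1, z.2), (z.1, pf z.1))) (𝓝 (0, 0))
        (𝓝 (((0 : T), (0 : E)), ((0 : T), (0 : E)))) := by
      have h3 : ContinuousAt (fun z : T × E => pf z.1) (0, 0) :=
        ContinuousAt.comp (f := fun z : T × E => z.1) (g := pf) hpfc.continuousAt
          continuousAt_fst
      have h4 : ContinuousAt (fun z : T × E => ((z.1, z.2), (z.1, pf z.1))) (0, 0) :=
        (continuousAt_fst.prodMk continuousAt_snd).prodMk (continuousAt_fst.prodMk h3)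
      have h5 := h4.tendsto
      simp only [hpf0] at h5
      exact h5
    have h3 := h2.eventually h1
    have h4 : ∀ᶠ z : T × E in 𝓝 (0, 0), f (z.1, pf z.1) = 0 := by
      have h5 : Tendsto (fun z : T × E => z.1) (𝓝 (0, 0)) (𝓝 0) := continuousAt_fst.tendsto
      exact h5.eventually heq
    filter_upwards [h3, h4] with z hz hz'
    rw [hz'] at hz
    have h6 : fderiv ℝ f (0, 0) ((z.1, z.2) - (z.1, pf z.1)) = z.2 - pf z.1 := by
      have h7 : ((z.1, z.2) - (z.1, pf z.1) : T × E) = ContinuousLinearMap.inr ℝ T E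
          (z.2 - pf z.1) := by
        ext1 <;> simp
      rw [h7, ← ContinuousLinearMap.comp_apply, hinr]
      rfl
    rw [h6, sub_zero] at hz
    have h8 : ‖((z.1, z.2) - (z.1, pf z.1) : T × E)‖ = ‖z.2 - pf z.1‖ := by
      simp [Prod.norm_def]
    rw [h8] at hz
    have h9 : ‖z.2 - pf z.1‖ ≤ ‖f (z.1, z.2)‖ + ‖f (z.1, z.2) - (z.2 - pf z.1)‖ := by
      have := norm_sub_le (f (z.1, z.2)) (f (z.1, z.2) - (z.2 - pf z.1))
      simpa using this
    have h10 : ‖z.2 - pf z.1‖ ≤ 2 * ‖f (z.1, z.2)‖ := by linarith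
    exact h10

omit [CompleteSpace T] [CompleteSpace E] in
/-- the derivative of the zero leaf vanishes -/
theorem fderiv_zero_leaf {Pi : T × E → E} {q₀ : E} (hPi : DifferentiableAt ℝ Pi (0, q₀))
    (h0 : ∀ᶠ q in 𝓝 q₀, Pi (0, q) = 0) (v : E) : fderiv ℝ Pi (0, q₀) (0, v) = 0 := by
  have h1 : HasFDerivAt (fun q : E => Pi (0, q))
      (fderiv ℝ Pi (0, q₀) ∘L ContinuousLinearMap.inr ℝ T E) q₀ :=
    HasFDerivAt.comp q₀ (g := Pi) (f := fun q : E => ((0 : T), q)) hPi.hasFDerivAt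
      (hasFDerivAt_prodMk_right 0 q₀)
  have h2 : HasFDerivAt (fun q : E => Pi (0, q)) (0 : E →L[ℝ] E) q₀ :=
    (hasFDerivAt_const (0 : E) q₀).congr_of_eventuallyEq h0
  have h3 := congrArg (fun L : E →L[ℝ] E => L v) (h1.unique h2)
  simpa using h3

omit [CompleteSpace T] [CompleteSpace E] in
/-- The second derivative of the formal leaf at `t = 0`: if `D_t Pi (0, q) τ = G q` near `q₀`, then
`D² Pi (0, q₀) (τ, x) (0, v) = D G (q₀) v`. -/
theorem d2_leaf {Pi : T × E → E} {q₀ : E} (hPi : ContDiffAt ℝ ∞ Pi (0, q₀))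
    (h0 : ∀ᶠ q in 𝓝 q₀, Pi (0, q) = 0) {τ : T} {G : E → E}
    (hG : ∀ᶠ q in 𝓝 q₀, fderiv ℝ Pi (0, q) (τ, 0) = G q) (x v : E) :
    fderiv ℝ (fderiv ℝ Pi) (0, q₀) (τ, x) (0, v) = fderiv ℝ G q₀ v := by
  have hD : DifferentiableAt ℝ (fderiv ℝ Pi) (0, q₀) :=
    (hPi.fderiv_right (m := ∞) (by simp)).differentiableAt (by simp)
  have h22 : (2 : WithTop ℕ∞) ≤ ∞ := ENat.LEInfty.out
  have hsymm := (hPi.isSymmSndFDerivAt (by simpa using h22))
  -- second derivatives in the direction of `E` vanish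
  have h2 : ∀ x v : E, fderiv ℝ (fderiv ℝ Pi) (0, q₀) (0, x) (0, v) = 0 := by
    intro x v
    have h3 : ∀ᶠ q in 𝓝 q₀, fderiv ℝ Pi (0, q) (0, v) = 0 := by
      have h4 : ∀ᶠ q in 𝓝 q₀, DifferentiableAt ℝ Pi (0, q) := by
        have h5 : ∀ᶠ z in 𝓝 ((0 : T), q₀), DifferentiableAt ℝ Pi z := by
          have h6 := (hPi.of_le (m := 1) (by simp)).eventually (by simp)
          filter_upwards [h6] with z hz using hz.differentiableAt (by simp)
        have h7 : Tendsto (fun q : E => ((0 : T), q)) (𝓝 q₀) (𝓝 (0, q₀)) :=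
          (Continuous.prodMk_right (0 : T)).tendsto q₀
        exact h7.eventually h5
      filter_upwards [h4, eventually_eventually_nhds.2 h0] with q hq hq0
      exact fderiv_zero_leaf hq hq0 v
    have h4 : HasFDerivAt (fun q : E => fderiv ℝ Pi (0, q) (0, v)) (0 : E →L[ℝ] E) q₀ :=
      (hasFDerivAt_const (0 : E) q₀).congr_of_eventuallyEq h3
    have h5 : HasFDerivAt (fun q : E => fderiv ℝ Pi (0, q))
        (fderiv ℝ (fderiv ℝ Pi) (0, q₀) ∘L ContinuousLinearMap.inr ℝ T E) q₀ :=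
      HasFDerivAt.comp q₀ (g := fderiv ℝ Pi) (f := fun q : E => ((0 : T), q)) hD.hasFDerivAt
        (hasFDerivAt_prodMk_right 0 q₀)
    have h6 := h5.clm_apply (hasFDerivAt_const ((0 : T), v) q₀)
    have h7 := congrArg (fun L : E →L[ℝ] E => L x) (h6.unique h4)
    simpa using h7
  have h7 : ((τ, x) : T × E) = (τ, 0) + (0, x) := by simp
  rw [h7, map_add, add_apply, h2, add_zero]
  rw [hsymm.eq]
  -- now the derivative in `q` of `D_t Pi (0, q) τ`
  have h8 : HasFDerivAt (fun q : E => fderiv ℝ Pi (0, q))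
      (fderiv ℝ (fderiv ℝ Pi) (0, q₀) ∘L ContinuousLinearMap.inr ℝ T E) q₀ :=
    HasFDerivAt.comp q₀ (g := fderiv ℝ Pi) (f := fun q : E => ((0 : T), q)) hD.hasFDerivAt
      (hasFDerivAt_prodMk_right 0 q₀)
  have h9 := h8.clm_apply (hasFDerivAt_const (τ, (0 : E)) q₀)
  have h10 := (h9.congr_of_eventuallyEq (hG.mono fun q hq => hq.symm)).fderiv
  rw [h10]
  simp

omit [CompleteSpace T] [CompleteSpace E] in
/-- The derivative at `(0, 0)` of the slope `D_q Pi (t, κ p) (ζ p)` of the formal leaf. -/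
theorem fderiv_slope_pt {Pi : T × E → E} {κ ζ : E → E} (hκ : DifferentiableAt ℝ κ 0)
    (hζ : DifferentiableAt ℝ ζ 0) (hPi : ContDiffAt ℝ ∞ Pi (0, κ 0))
    (h0 : ∀ᶠ q in 𝓝 (κ 0), Pi (0, q) = 0) {τ : T} {G : E → E}
    (hG : ∀ᶠ q in 𝓝 (κ 0), fderiv ℝ Pi (0, q) (τ, 0) = G q) (g : E) :
    fderiv ℝ (fun z : T × E => fderiv ℝ Pi (z.1, κ z.2) (0, ζ z.2)) (0, 0) (τ, g) =
      fderiv ℝ G (κ 0) (ζ 0) := by
  have hD : DifferentiableAt ℝ (fderiv ℝ Pi) (0, κ 0) :=
    (hPi.fderiv_right (m := ∞) (by simp)).differentiableAt (by simp)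
  have h1 : HasFDerivAt (fun z : T × E => (z.1, κ z.2))
      ((ContinuousLinearMap.fst ℝ T E).prod (fderiv ℝ κ 0 ∘L ContinuousLinearMap.snd ℝ T E))
      (0, 0) :=
    hasFDerivAt_fst.prodMk (HasFDerivAt.comp (0, 0) (g := κ) (f := fun z : T × E => z.2)
      hκ.hasFDerivAt hasFDerivAt_snd)
  have h2 : HasFDerivAt (fun z : T × E => fderiv ℝ Pi (z.1, κ z.2))
      (fderiv ℝ (fderiv ℝ Pi) (0, κ 0) ∘L ((ContinuousLinearMap.fst ℝ T E).prod
        (fderiv ℝ κ 0 ∘L ContinuousLinearMap.snd ℝ T E))) (0, 0) :=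
    HasFDerivAt.comp (0, 0) (g := fderiv ℝ Pi) (f := fun z : T × E => (z.1, κ z.2))
      hD.hasFDerivAt h1
  have h3 : HasFDerivAt (fun z : T × E => ((0 : T), ζ z.2))
      ((0 : T × E →L[ℝ] T).prod (fderiv ℝ ζ 0 ∘L ContinuousLinearMap.snd ℝ T E)) (0, 0) :=
    (hasFDerivAt_const (0 : T) (0, 0)).prodMk
      (HasFDerivAt.comp (0, 0) (g := ζ) (f := fun z : T × E => z.2)
      hζ.hasFDerivAt hasFDerivAt_snd)
  have h4 := (h2.clm_apply h3).fderiv
  rw [h4]
  simp only [add_apply, ContinuousLinearMap.comp_apply, ContinuousLinearMap.flip_apply,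
    ContinuousLinearMap.prod_apply, ContinuousLinearMap.coe_fst', ContinuousLinearMap.coe_snd',
    zero_apply]
  rw [d2_leaf hPi h0 hG, fderiv_zero_leaf (hPi.differentiableAt (by simp)) h0, zero_add]

end Vale.Agent.P207.N3.H547
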