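import Vale.Agent.P207.N3.H547.Princ
import Vale.Agent.P207.N3.H547.FormalPt

/-!
# P207, N3, P17: the principle of weights at the point of intersection with a fixed leaf

(helper547)
-/

open Set Filter Topology Asymptotics
open scoped ContDiff

noncomputable section

set_option linter.unusedSectionVars false

namespace Vale.Agent.P207.N3.H547

variable {J : Type} [Fintype J] [DecidableEq J]
variable {E : Type} [NormedAddCommGroup E] [NormedSpace ℝ E] [CompleteSpace E]

theorem tendsto_tn {w : J → ℝ} (hw : ∀ a, 0 < w a) (P : J → Polynomial ℝ) :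
    Tendsto (tn w P) atTop (𝓝 0) := by
  obtain ⟨m, hm0, hm⟩ := exists_min_weight hw
  rw [tendsto_zero_iff_norm_tendsto_zero]
  exact (tendsto_norm_tn hm hm0 P).congr fun n => by simp

/-- **The principle of weights for a family of leaves.** `Φ (t, q)` is the formal leaf, `κ` the
fixed transversal leaf, `pn n` the (true) point of intersection with the leaf number `n`, which is
close to the formal leaf with parameter `tn w P n`; `F (t, p)` is a smooth function which is
negligible at `(tn w P n, pn n)`. -/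
theorem princ_leaf {w : J → ℝ} (hw : ∀ a, 0 < w a) (W₀ : ℝ) {Φ : (J → ℝ) × E → E} {κ : E → E}
    (hκ : ContDiffAt ℝ ∞ κ 0) (hPi : ContDiffAt ℝ ∞ Φ (0, κ 0))
    (h0 : ∀ᶠ q in 𝓝 (κ 0), Φ (0, q) = 0) {F : (J → ℝ) × E → ℝ}
    (hF : ContDiffAt ℝ ∞ F (0, 0)) :
    ∃ p : MvPolynomial J ℝ, p.coeff 0 = F (0, 0) ∧
      (∀ a, p.coeff (Finsupp.single a 1) = fderiv ℝ F (0, 0)
        (Pi.single a 1, fderiv ℝ Φ (0, κ 0) (Pi.single a 1, 0))) ∧
      ∀ (P : J → Polynomial ℝ) (pn : ℕ → E) (ε : ℕ → ℝ) (C : ℝ),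
        (∀ W < W₀, Tendsto (fun n : ℕ => Real.exp (W * n) * ε n) atTop (𝓝 0)) →
        Tendsto pn atTop (𝓝 0) →
        (∀ᶠ n in atTop, ‖pn n - Φ (tn w P n, κ (pn n))‖ ≤ ε n) →
        (∀ᶠ n in atTop, |F (tn w P n, pn n)| ≤ C * ε n) →
        ∀ W < W₀, wpart w p W (fun a => (P a).eval 0) = 0 := by
  obtain ⟨pf, hpf, hpf0, hpfeq, hpf', hlip⟩ := formal_pt (T := J → ℝ) hκ hPi h0
  have hρ : ContDiffAt ℝ ∞ (fun t : J → ℝ => F (t, pf t)) 0 := by
    refine ContDiffAt.comp (0 : J → ℝ) (g := F) (f := fun t => (t, pf t)) ?_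
      (contDiffAt_id.prodMk hpf)
    rw [hpf0]
    exact hF
  obtain ⟨p, hp0, hp1, hp⟩ := princ hw hρ W₀
  have hFd : DifferentiableAt ℝ F (0, 0) := hF.differentiableAt (by simp)
  refine ⟨p, by rw [hp0]; simp only [hpf0], fun a => ?_, fun P pn ε C hε hpn h1 h2 => ?_⟩
  · rw [hp1 a]
    unfold pd
    have h3 : HasFDerivAt (fun t : J → ℝ => (t, pf t))
        ((ContinuousLinearMap.id ℝ (J → ℝ)).prod (fderiv ℝ pf 0)) 0 :=
      (hasFDerivAt_id 0).prodMk (hpf.differentiableAt (by simp)).hasFDerivAt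
    have h4 : HasFDerivAt (fun t : J → ℝ => F (t, pf t))
        (fderiv ℝ F (0, 0) ∘L ((ContinuousLinearMap.id ℝ (J → ℝ)).prod (fderiv ℝ pf 0))) 0 := by
      refine HasFDerivAt.comp (0 : J → ℝ) (g := F) (f := fun t => (t, pf t)) ?_ h3
      rw [hpf0]
      exact hFd.hasFDerivAt
    rw [h4.fderiv, hpf']
    simp
  · apply hp P
    intro W hW
    have htn := tendsto_tn hw P
    -- the formal point is close to the true point
    have h3 : ∀ᶠ n in atTop, ‖pn n - pf (tn w P n)‖ ≤ 2 * ε n := by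
      have h4 : Tendsto (fun n => (tn w P n, pn n)) atTop (𝓝 ((0 : J → ℝ), (0 : E))) :=
        htn.prodMk_nhds hpn
      filter_upwards [h4.eventually hlip, h1] with n h5 h6
      exact h5.trans (by linarith)
    -- `F` is Lipschitz near `(0, 0)`
    obtain ⟨K, s, hs, hK⟩ := (hF.of_le (m := 1) (by simp)).exists_lipschitzOnWith
    have h5 : ∀ᶠ n in atTop, (tn w P n, pn n) ∈ s := (htn.prodMk_nhds hpn).eventually hs
    have h6 : ∀ᶠ n in atTop, (tn w P n, pf (tn w P n)) ∈ s := by
      have h7 : Tendsto (fun n => pf (tn w P n)) atTop (𝓝 0) := by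
        have := hpf.continuousAt.tendsto.comp htn
        rw [hpf0] at this
        exact this
      exact (htn.prodMk_nhds h7).eventually hs
    have h8 : ∀ᶠ n in atTop, ‖F (tn w P n, pf (tn w P n))‖ ≤ (C + K * 2) * ε n := by
      filter_upwards [h2, h3, h5, h6] with n a1 a2 a3 a4
      have a5 := hK.dist_le_mul _ a3 _ a4
      have a6 : dist (tn w P n, pn n) (tn w P n, pf (tn w P n)) = ‖pn n - pf (tn w P n)‖ := by
        rw [Prod.dist_eq, dist_self, dist_eq_norm]
        exact max_eq_right (norm_nonneg _)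
      rw [a6, Real.dist_eq] at a5
      have a7 : |F (tn w P n, pf (tn w P n))| ≤ |F (tn w P n, pn n)| +
          |F (tn w P n, pn n) - F (tn w P n, pf (tn w P n))| := by
        have := abs_sub_abs_le_abs_sub (F (tn w P n, pf (tn w P n))) (F (tn w P n, pn n))
        rw [abs_sub_comm] at this
        linarith
      rw [Real.norm_eq_abs]
      have a8 : (K : ℝ) * ‖pn n - pf (tn w P n)‖ ≤ K * (2 * ε n) :=
        mul_le_mul_of_nonneg_left a2 K.2
      nlinarith
    have h9 := (hε W hW).const_mul (C + K * 2)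
    rw [mul_zero] at h9
    refine squeeze_zero_norm' ?_ h9
    filter_upwards [h8] with n h10
    rw [norm_mul, Real.norm_eq_abs (Real.exp _), abs_of_pos (Real.exp_pos _)]
    calc Real.exp (W * n) * ‖F (tn w P n, pf (tn w P n))‖
        ≤ Real.exp (W * n) * ((C + K * 2) * ε n) :=
          mul_le_mul_of_nonneg_left h10 (Real.exp_pos _).le
      _ = (C + K * 2) * (Real.exp (W * n) * ε n) := by ring

end Vale.Agent.P207.N3.H547
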