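import Vale.Agent.P207.N3.H547.FeedT
import Vale.Agent.P207.N3.H578.SideF
import Vale.Agent.P207.N3.H790.NF

/-!
# P207, N3, P17 (ii): the light jets of a feed are smooth (helper547)
-/

open Set Filter Topology Metric
open scoped ContDiff Gradient

noncomputable section

namespace Vale.Agent.P207.N3.H547

open H254 H70 H578 P207N3H639

/-! ### restriction of structured sequences to smaller parameter sets -/

section restr

variable {Y Y' : Type*}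
variable {E : Type} [NormedAddCommGroup E] [NormedSpace ℝ E]
variable {F : Type} [NormedAddCommGroup F] [NormedSpace ℝ F]

theorem StrT.restr {U : Set E} {I : ℝ → Set (Y → ℝ)} {I' : ℝ → Set (Y' → ℝ)} (j : Y' → Y)
    (h : ∀ l c, c ∈ I l → c ∘ j ∈ I' l) {s : Y → ℕ → E → F} (hs : s ∈ StrT U I) :
    s ∘ j ∈ StrT (F := F) U I' := by
  induction hs using Submodule.span_induction with
  | mem s hs =>
    obtain ⟨c, l, P, ψ, hc, hψ, rfl⟩ := hs
    exact trm_mem (h l c hc) hψ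
  | zero => exact (StrT (F := F) U I').zero_mem
  | add s s' _ _ h1 h2 => exact (StrT (F := F) U I').add_mem h1 h2
  | smul a s _ h1 => exact (StrT (F := F) U I').smul_mem a h1

theorem Str.restr {U : Set E} {I : ℝ → Set (Y → ℝ)} {I' : ℝ → Set (Y' → ℝ)} {ρ : ℝ} (j : Y' → Y)
    (h : ∀ l c, c ∈ I l → c ∘ j ∈ I' l) {f : Y → ℕ → E → F} (hf : Str U I ρ f) :
    Str U I' ρ (fun y => f (j y)) := by
  obtain ⟨s, hs, h1⟩ := hf
  exact ⟨s ∘ j, StrT.restr j h hs, fun y => h1 (j y)⟩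

theorem grH_restr {G : Type} {θ : G → ℝ} {v : Y → G → ℝ} {b : ℝ} {hb : 0 < b} {hb1 : b < 1}
    (j : Y' → Y) : ∀ l c, c ∈ (grH θ v b hb hb1).D l → c ∘ j ∈ (grH θ (fun y => v (j y)) b hb hb1).D l := by
  rintro l c ⟨h1, p, h2, h3⟩
  exact ⟨h1, p, h2, fun y => h3 (j y)⟩

theorem strH_restr {G : Type} {θ : G → ℝ} {v : Y → G → ℝ} {b : ℝ} {hb : 0 < b} {hb1 : b < 1}
    {U : Set E} {ρ : ℝ} (j : Y' → Y) {f : Y → ℕ → E → F} (hf : Str U (grH θ v b hb hb1).D ρ f) :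
    Str U (grH θ (fun y => v (j y)) b hb hb1).D ρ (fun y => f (j y)) :=
  Str.restr j (grH_restr j) hf

end restr

variable {H : Half} {κ ℓ : ℝ} {K : ℕ} (F : Feed H κ ℓ K)

/-- stability of the fixed point -/
theorem stable (hK : 1 ≤ K) {δ : ℝ} (hδ : 0 < δ) : ∃ ε > 0, ε ≤ F.rad ∧
    ∀ y ∈ ball (0 : E2) ε, ∀ n, H.M^[n] y ∈ ball (0 : E2) δ := by
  obtain ⟨σ, hσ0, hσ1, hσ⟩ := exists_sigma F.S.θ_lt
  obtain ⟨C, hC0, hC⟩ := H578.iter_bound F.nf hσ hσ0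
  set η : ℝ := δ / (2 * (C + 1)) with hη
  have hηp : 0 < η := by positivity
  have e3 : ∀ᶠ y in 𝓝 (0 : E2), ‖F.v0 y‖ < min η 1 := by
    have h1 : ContinuousAt F.v0 0 := F.v0_cont.continuousAt (ball_mem_nhds _ H.r_pos)
    have h2 : ContinuousAt (fun y => ‖F.v0 y‖) 0 := h1.norm
    have h3 : ‖F.v0 0‖ < min η 1 := by
      rw [F.v0_zero, norm_zero]
      exact lt_min hηp one_pos
    exact h2.eventually (gt_mem_nhds h3)
  obtain ⟨ε, hε, hball⟩ := Metric.eventually_nhds_iff_ball.1 e3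
  refine ⟨min ε F.rad, lt_min hε F.rad_pos, min_le_right _ _, fun y hy n => ?_⟩
  have hy1 : y ∈ ball (0 : E2) F.rad := ball_subset_ball (min_le_right _ _) hy
  have hv := hball y (ball_subset_ball (min_le_left _ _) hy)
  have hv1 : ‖F.v0 y‖ ≤ 1 := (hv.trans_le (min_le_right _ _)).le
  have hv2 : ‖F.v0 y‖ < η := hv.trans_le (min_le_left _ _)
  have h1 : ‖F.v0 (H.M^[n] y)‖ ≤ C * ‖F.v0 y‖ := by
    rw [F.v0_orbit hK hy1 n]
    refine (hC _ hv1 n).trans ?_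
    have h2 : σ ^ n ≤ 1 := pow_le_one₀ hσ0.le hσ1.le
    have h3 : C * σ ^ n ≤ C * 1 := mul_le_mul_of_nonneg_left h2 hC0
    rw [mul_one] at h3
    exact mul_le_mul_of_nonneg_right h3 (norm_nonneg _)
  have hb : H.M^[n] y ∈ ball (0 : E2) H.r := ball_subset_ball H.ρ_le (F.rad_orbit hK hy1 n).1
  have h2 : ∀ i, |(H.M^[n] y) i| ≤ C * ‖F.v0 y‖ := by
    intro i
    obtain ⟨j, hj⟩ := F.exists_base hK i
    rw [← F.v0_base hb hj]
    exact (norm_le_pi_norm (F.v0 (H.M^[n] y)) j).trans h1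
  rw [mem_ball_zero_iff]
  have h9 : ‖H.M^[n] y‖ ≤ |(H.M^[n] y) 0| + |(H.M^[n] y) 1| := E2_norm_le _
  have h10 : 2 * (C * ‖F.v0 y‖) < δ := by
    have h11 : 2 * (C + 1) * η = δ := by
      rw [hη]
      field_simp
    have h12 : C * ‖F.v0 y‖ ≤ (C + 1) * ‖F.v0 y‖ := by nlinarith [norm_nonneg (F.v0 y)]
    have h13 : (C + 1) * ‖F.v0 y‖ < (C + 1) * η := mul_lt_mul_of_pos_left hv2 (by linarith)
    linarith
  linarith [h2 0, h2 1]

/-- the strong stable axis -/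
theorem axis_decay (hK : 1 ≤ K) {μ₁ μ₂ a : ℝ} {k : ℕ} (hOK : (H790.NF.tri μ₁ μ₂ a k).OK)
    (hM : ∀ᶠ p in 𝓝 (0 : E2), H.M p = (H790.NF.tri μ₁ μ₂ a k).inv p) :
    ∃ ε > 0, ε ≤ F.rad ∧ ∀ y ∈ ball (0 : E2) ε, y 1 = 0 →
      ∃ C, ∀ n, ‖H.M^[n] y‖ ≤ C * |μ₁|⁻¹ ^ n := by
  obtain ⟨δ, hδ, hball⟩ := Metric.eventually_nhds_iff_ball.1 hM
  obtain ⟨ε, hε, hεr, hst⟩ := stable F hK hδ
  refine ⟨ε, hε, hεr, fun y hy hy1 => ⟨|y 0|, ?_⟩⟩
  have key : ∀ n, (H.M^[n] y) 0 = μ₁⁻¹ ^ n * y 0 ∧ (H.M^[n] y) 1 = 0 := by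
    intro n
    induction n with
    | zero => exact ⟨by simp, hy1⟩
    | succ n ih =>
      rw [Function.iterate_succ_apply', hball _ (hst y hy n)]
      refine ⟨?_, ?_⟩
      · rw [H790.NF.inv_tri_zero, ih.1, ih.2]
        rcases eq_or_ne a 0 with rfl | ha
        · rw [zero_mul, sub_zero, pow_succ']
          ring
        · have hk : k ≠ 0 := by
            have := (hOK.2.2 ha).1
            omega
          rw [mul_zero, zero_pow hk, mul_zero, sub_zero, pow_succ']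
          ring
      · rw [H790.NF.inv_tri_one, ih.2, mul_zero]
  intro n
  obtain ⟨h1, h2⟩ := key n
  have h3 := E2_norm_le (H.M^[n] y)
  rw [h1, h2, abs_zero, add_zero, abs_mul, abs_pow, abs_inv] at h3
  linarith

/-- **Claim (ii) of 4.6 for a feed.** -/
theorem light_feed_of {D : PF} {κ ℓ : ℝ} {K : ℕ} (F : Feed D.Y κ ℓ K) (hK : 1 ≤ K) (h0 : 0 < ℓ)
    (h12 : ℓ < κ) {μ₁ μ₂ a : ℝ} {k : ℕ} (hOK : (H790.NF.tri μ₁ μ₂ a k).OK)
    (hM : ∀ᶠ p in 𝓝 (0 : E2), D.Y.M p = (H790.NF.tri μ₁ μ₂ a k).inv p)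
    (hκ : |μ₁| = Real.exp κ) {ε δ : ℝ} (hε : 0 < ε) (hδ : 0 < δ) {b : ℝ} {hb : 0 < b} {hb1 : b < 1}
    (hStr : Str (ball (0 : E2) δ)
      (grH (GT.th F) (fun y : ball (0 : E2) ε => tv F y) b hb hb1).D (Real.exp (-κ) ^ 2)
      (fun (y : ball (0 : E2) ε) n q =>
        ∇ (D.Y.S (D.Y.M^[n] y)) q - ∑ g, tv F (D.Y.M^[n] y) g • gm g.ix q))
    (hreg : ∀ ε > 0, ∃ xs ∈ ball (0 : E2) ε, RegLeaf D xs) (c : ℕ × ℕ)
    (hc : κ * c.1 + ℓ * c.2 < 2 * κ) : ContDiffAt ℝ ∞ (F.side.v (Sum.inl c)) 0 := by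
  by_cases hex : ∃ j, F.lab j = Sum.inl c
  swap
  · have h1 : F.side.v (Sum.inl c) = fun _ => 0 := funext fun y => F.vv_none hex y
    rw [h1]
    exact contDiffAt_const
  obtain ⟨j, hj⟩ := hex
  obtain ⟨xs, hxs, hR⟩ := hreg δ hδ
  obtain ⟨ε1, hε1, hε1r, hax⟩ := axis_decay F hK hOK hM
  obtain ⟨ε', hε'0, hle1, hle2⟩ : ∃ ε' > 0, ε' ≤ ε ∧ ε' ≤ ε1 :=
    ⟨min ε ε1, lt_min hε hε1, min_le_left _ _, min_le_right _ _⟩
  have hε'r : ε' ≤ F.rad := hle2.trans hε1r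
  have hrr : ∀ y ∈ ball (0 : E2) ε', y ∈ ball (0 : E2) D.Y.r := fun y hy =>
    ball_subset_ball (hε'r.trans (F.rad_le.trans D.Y.ρ_le)) hy
  -- the base labels
  obtain ⟨j0, hj0⟩ := F.exists_base hK 0
  obtain ⟨j1, hj1⟩ := F.exists_base hK 1
  rw [e_zero] at hj0
  rw [e_one] at hj1
  obtain ⟨g0, hg0⟩ := GT.mem_range hj0
  obtain ⟨g1, hg1⟩ := GT.mem_range hj1
  have hi0 : g0.ix = (1, 0) := by
    have := g0.lab
    rw [hg0, hj0] at this
    exact (Sum.inl_injective this).symm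
  have hi1 : g1.ix = (0, 1) := by
    have := g1.lab
    rw [hg1, hj1] at this
    exact (Sum.inl_injective this).symm
  have hne : ∀ g : GT F, g.ix ≠ (0, 0) := by
    intro g h
    have h1 := ((F.lab_inl _).1 ⟨g.ι, g.lab⟩).1
    rw [h] at h1
    simp [len] at h1
  have ht1 : Real.exp (-κ) = |μ₁|⁻¹ := by rw [hκ, Real.exp_neg]
  have hinc : ∀ y : ball (0 : E2) ε', (y : E2) ∈ ball (0 : E2) ε := fun y =>
    ball_subset_ball hle1 y.2
  have k1 : ∀ y ∈ ball (0 : E2) ε', y 1 = 0 → ∃ C, ∀ n, ‖D.Y.M^[n] y‖ ≤ C * Real.exp (-κ) ^ n := by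
    intro y hy hy1
    rw [ht1]
    exact hax y (ball_subset_ball hle2 hy) hy1
  have k2 : ∀ y ∈ ball (0 : E2) ε', tv F y g0 = y 0 := fun y hy =>
    F.v0_base (hrr y hy) (i := 0) (by rw [e_zero, hg0, hj0])
  have k3 : ∀ y ∈ ball (0 : E2) ε', tv F y g1 = y 1 := fun y hy =>
    F.v0_base (hrr y hy) (i := 1) (by rw [e_one, hg1, hj1])
  have k4 : ∀ y ∈ ball (0 : E2) ε', ∀ g : GT F, ∃ Q : Polynomial ℝ, ∀ n : ℕ,
      tv F (D.Y.M^[n] y) g = GT.th F g ^ n * Q.eval (n : ℝ) := by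
    intro y hy g
    obtain ⟨P, -, hP⟩ := F.nf.orbit_poly (u := fun n => F.raw (D.Y.M^[n] y))
      (fun n => (F.rad_orbit hK (ball_subset_ball hε'r hy) n).2.1)
      (fun n => (F.rad_orbit hK (ball_subset_ball hε'r hy) n).2.2) g.ι
    exact ⟨P, hP⟩
  have k5 : Str (ball (0 : E2) δ)
      (grH (GT.th F) (fun y : ball (0 : E2) ε' => tv F y) b hb hb1).D (Real.exp (-κ) ^ 2)
      (fun (y : ball (0 : E2) ε') n q =>
        ∇ (D.Y.S (D.Y.M^[n] y)) q - ∑ g, tv F (D.Y.M^[n] y) g • gm g.ix q) := by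
    have h := strH_restr (E := E2) (F := E2)
      (fun y : ball (0 : E2) ε' => (⟨y, hinc y⟩ : ball (0 : E2) ε)) hStr
    exact h
  have k6 : ∀ y ∈ ball (0 : E2) ε', Tendsto (fun n => D.Y.M^[n] y) atTop (𝓝 0) :=
    fun y hy => F.orbit_tendsto hK (ball_subset_ball hε'r hy)
  have key := light_hat hR GT.ix_inj hne hi0 hi1 (Real.exp_pos (-κ))
    (Real.exp_lt_exp.2 (by linarith)) (Real.exp_lt_one_iff.2 (by linarith)) (fun g => g.abs_th)
    isOpen_ball (mem_ball_self hε'0) k6 k1 k2 k3 k4 isOpen_ball hxs le_rfl hb hb1 k5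
  obtain ⟨g, hg⟩ := GT.mem_range hj
  have hic : g.ix = c := by
    have := g.lab
    rw [hg, hj] at this
    exact (Sum.inl_injective this).symm
  have hlt : Real.exp (-κ) ^ 2 < |GT.th F g| := by
    rw [g.abs_th, hic, ← Real.exp_nat_mul, ← Real.exp_nat_mul, ← Real.exp_nat_mul, ← Real.exp_add]
    apply Real.exp_lt_exp.2
    push_cast
    linarith
  have h1 := (key g hlt).contDiffAt (isOpen_ball.mem_nhds (mem_ball_self hε'0))
  refine h1.congr_of_eventuallyEq ?_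
  filter_upwards [isOpen_ball.mem_nhds (mem_ball_self hε'0)] with y hy
  show F.vv (Sum.inl c) y = F.v0 y g.ι
  rw [← hj, ← hg]
  exact F.vv_lab _ (ball_subset_ball hε'r hy)

end Vale.Agent.P207.N3.H547
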