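import Mathlib

/-!
# P207, N3, P17: polynomial approximation, weights, and the principle of weights

`taylor_mv`: a function which is `C^K` near `0` is, up to `O(‖t‖ ^ K)`, a polynomial, with the
expected constant and linear coefficients. `expPoly_unique`: a finite sum of terms
`exp(-W n) R_W(n)` which is `O(exp(-W₀ n))` has `R_W = 0` for all `W < W₀`. `princ`: the principle
of weights. (helper547)
-/

open Set Filter Topology Asymptotics
open scoped ContDiff

noncomputable section

set_option linter.unusedSectionVars false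

namespace Vale.Agent.P207.N3.H547

variable {J : Type} [Fintype J] [DecidableEq J]

/-! ### Exponential polynomials -/

theorem poly_eq_zero_of_tendsto {P : Polynomial ℝ}
    (h : Tendsto (fun n : ℕ => P.eval (n : ℝ)) atTop (𝓝 0)) : P = 0 := by
  by_contra hP
  have h1 := (P.isEquivalent_atTop_lead).comp_tendsto tendsto_natCast_atTop_atTop
  have h2 : Tendsto (fun n : ℕ => P.leadingCoeff * (n : ℝ) ^ P.natDegree) atTop (𝓝 0) :=
    h1.tendsto_nhds h
  have h3 : 0 < |P.leadingCoeff| := abs_pos.2 (Polynomial.leadingCoeff_ne_zero.2 hP)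
  have h4 := (tendsto_order.1 h2.norm).2 |P.leadingCoeff| (by simpa using h3)
  obtain ⟨n, hn, hn1⟩ := (h4.and (eventually_ge_atTop 1)).exists
  have h5 : (1 : ℝ) ≤ (n : ℝ) ^ P.natDegree := one_le_pow₀ (by exact_mod_cast hn1)
  have h6 : ‖P.leadingCoeff * (n : ℝ) ^ P.natDegree‖ = |P.leadingCoeff| * (n : ℝ) ^ P.natDegree := by
    rw [Real.norm_eq_abs, abs_mul, abs_of_pos (lt_of_lt_of_le one_pos h5)]
  rw [h6] at hn
  nlinarith

theorem tendsto_exp_poly {c : ℝ} (hc : 0 < c) (P : Polynomial ℝ) :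
    Tendsto (fun n : ℕ => Real.exp (-c * n) * P.eval (n : ℝ)) atTop (𝓝 0) := by
  have h1 : Tendsto (fun x : ℝ => Real.exp (-c * x) * P.eval x) atTop (𝓝 0) := by
    induction P using Polynomial.induction_on' with
    | add p q hp hq =>
      have := hp.add hq
      simpa [mul_add] using this
    | monomial k a =>
      have h2 := Real.tendsto_pow_mul_exp_neg_atTop_nhds_zero k
      have h3 : Tendsto (fun x : ℝ => c * x) atTop atTop := tendsto_id.const_mul_atTop hc
      have h4 := (h2.comp h3).const_mul (a / c ^ k)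
      simp only [mul_zero] at h4
      refine h4.congr fun x => ?_
      simp only [Function.comp_apply, Polynomial.eval_monomial]
      rw [mul_pow, neg_mul]
      field_simp
  exact h1.comp tendsto_natCast_atTop_atTop

/-- Uniqueness of exponential-polynomial expansions. -/
theorem expPoly_unique (s : Finset ℝ) (R : ℝ → Polynomial ℝ) {W₀ : ℝ}
    (h : ∀ W < W₀, Tendsto (fun n : ℕ => Real.exp (W * n) *
      ∑ V ∈ s, Real.exp (-V * n) * (R V).eval (n : ℝ)) atTop (𝓝 0)) :
    ∀ W ∈ s, W < W₀ → R W = 0 := by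
  by_contra hcon
  push Not at hcon
  obtain ⟨W1, hW1, hW1', hR1⟩ := hcon
  have hne : (s.filter fun W => R W ≠ 0).Nonempty := ⟨W1, by simp [hW1, hR1]⟩
  obtain ⟨W, hW, hmin⟩ := Finset.exists_min_image _ id hne
  simp only [Finset.mem_filter, id] at hW hmin
  have hWW : W < W₀ := lt_of_le_of_lt (hmin W1 ⟨hW1, hR1⟩) hW1'
  apply hW.2
  apply poly_eq_zero_of_tendsto
  have h1 := h W hWW
  -- split off the term `W`
  have h2 : ∀ n : ℕ, Real.exp (W * n) * ∑ V ∈ s, Real.exp (-V * n) * (R V).eval (n : ℝ) =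
      (R W).eval (n : ℝ) + ∑ V ∈ s.erase W, Real.exp (-(V - W) * n) * (R V).eval (n : ℝ) := by
    intro n
    rw [← Finset.add_sum_erase _ _ hW.1, mul_add, Finset.mul_sum]
    congr 1
    · rw [← mul_assoc, ← Real.exp_add]
      simp
    · refine Finset.sum_congr rfl fun V _ => ?_
      rw [← mul_assoc, ← Real.exp_add]
      congr 2
      ring
  have h3 : Tendsto (fun n : ℕ => ∑ V ∈ s.erase W, Real.exp (-(V - W) * n) *
      (R V).eval (n : ℝ)) atTop (𝓝 0) := by
    rw [show (0 : ℝ) = ∑ V ∈ s.erase W, (0 : ℝ) by simp]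
    refine tendsto_finsetSum _ fun V hV => ?_
    rw [Finset.mem_erase] at hV
    rcases eq_or_ne (R V) 0 with h0 | h0
    · simp [h0]
    · have h4 : W < V := lt_of_le_of_ne (hmin V ⟨hV.2, h0⟩) (Ne.symm hV.1)
      exact tendsto_exp_poly (sub_pos.2 h4) _
  have h4 := h1.sub h3
  simp only [sub_zero] at h4
  refine h4.congr fun n => ?_
  rw [h2 n]
  ring

/-! ### Polynomial approximation of smooth functions -/

/-- the derivative of `f` in the direction `a` -/
def pd (f : (J → ℝ) → ℝ) (a : J) (t : J → ℝ) : ℝ := fderiv ℝ f t (Pi.single a 1)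

theorem fderiv_eq_sum {f : (J → ℝ) → ℝ} (t v : J → ℝ) :
    fderiv ℝ f t v = ∑ a, v a * pd f a t := by
  have h : v = ∑ a, v a • (Pi.single a (1 : ℝ) : J → ℝ) := by
    ext b
    simp [Finset.sum_apply, Pi.single_apply]
  conv_lhs => rw [h]
  rw [map_sum]
  refine Finset.sum_congr rfl fun a _ => ?_
  rw [map_smul, smul_eq_mul]
  rfl

/-- the antiderivative along rays: `t^α ↦ t^α / (|α| + 1)` -/
def ant (p : MvPolynomial J ℝ) : MvPolynomial J ℝ :=
  ∑ α ∈ p.support, MvPolynomial.monomial α (p.coeff α / ((∑ b, α b : ℕ) + 1))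

theorem eval_monomial' (t : J → ℝ) (α : J →₀ ℕ) (c : ℝ) :
    MvPolynomial.eval t (MvPolynomial.monomial α c) = c * ∏ b, t b ^ α b := by
  rw [MvPolynomial.eval_monomial, Finsupp.prod_fintype _ _ (fun i => pow_zero _)]

theorem eval_smul_monomial (t : J → ℝ) (s : ℝ) (α : J →₀ ℕ) :
    (∏ b, (s • t) b ^ α b) = s ^ (∑ b, α b) * ∏ b, t b ^ α b := by
  simp only [Pi.smul_apply, smul_eq_mul, mul_pow]
  rw [Finset.prod_mul_distrib, Finset.prod_pow_eq_pow_sum]

theorem eval_ant (p : MvPolynomial J ℝ) (t : J → ℝ) (s : ℝ) :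
    s * MvPolynomial.eval (s • t) (ant p) =
      ∑ α ∈ p.support, p.coeff α / ((∑ b, α b : ℕ) + 1) * (s ^ ((∑ b, α b) + 1) *
        ∏ b, t b ^ α b) := by
  unfold ant
  rw [map_sum, Finset.mul_sum]
  refine Finset.sum_congr rfl fun α _ => ?_
  rw [eval_monomial', eval_smul_monomial]
  ring

theorem eval_eq_sum' (p : MvPolynomial J ℝ) (t : J → ℝ) :
    MvPolynomial.eval t p = ∑ α ∈ p.support, p.coeff α * ∏ b, t b ^ α b := by
  rw [MvPolynomial.eval_eq']

theorem hasDerivAt_ant (p : MvPolynomial J ℝ) (t : J → ℝ) (s : ℝ) :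
    HasDerivAt (fun s : ℝ => s * MvPolynomial.eval (s • t) (ant p))
      (MvPolynomial.eval (s • t) p) s := by
  have h1 : (fun s : ℝ => s * MvPolynomial.eval (s • t) (ant p)) = fun s : ℝ =>
      ∑ α ∈ p.support, p.coeff α / ((∑ b, α b : ℕ) + 1) * (s ^ ((∑ b, α b) + 1) *
        ∏ b, t b ^ α b) := by
    funext s
    exact eval_ant p t s
  rw [h1, eval_eq_sum']
  apply HasDerivAt.fun_sum
  intro α _
  rw [eval_smul_monomial]
  have h2 := ((hasDerivAt_pow ((∑ b, α b) + 1) s).mul_const (∏ b, t b ^ α b)).const_mul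
    (p.coeff α / ((∑ b, α b : ℕ) + 1))
  refine h2.congr_deriv ?_
  have h3 : ((∑ b, α b : ℕ) : ℝ) + 1 ≠ 0 := by positivity
  rw [Nat.add_sub_cancel, Nat.cast_add, Nat.cast_one]
  field_simp

theorem norm_eval_smul {t : J → ℝ} {s : ℝ} (hs : s ∈ Icc (0 : ℝ) 1) : ‖s • t‖ ≤ ‖t‖ := by
  rw [norm_smul, Real.norm_eq_abs, abs_of_nonneg hs.1]
  exact mul_le_of_le_one_left (norm_nonneg _) hs.2

/-- Taylor: polynomial approximation of a `C^K` function of finitely many variables. -/
theorem taylor_mv (K : ℕ) : ∀ f : (J → ℝ) → ℝ, ContDiffAt ℝ K f 0 →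
    ∃ p : MvPolynomial J ℝ, ((fun t => f t - MvPolynomial.eval t p) =O[𝓝 0] fun t => ‖t‖ ^ K) ∧
      (1 ≤ K → p.coeff 0 = f 0) ∧
      (2 ≤ K → ∀ a, p.coeff (Finsupp.single a 1) = pd f a 0) := by
  induction K with
  | zero =>
    intro f hf
    refine ⟨0, ?_, by simp, by simp⟩
    have h1 : ContinuousAt f 0 := hf.continuousAt
    simpa using h1.isBigO_one ℝ
  | succ K ih =>
    intro f hf
    have hf' : ContDiffAt ℝ (K : WithTop ℕ∞) (fderiv ℝ f) 0 :=
      hf.fderiv_right (by exact_mod_cast le_rfl)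
    have hpd : ∀ a, ContDiffAt ℝ (K : WithTop ℕ∞) (pd f a) 0 := fun a =>
      hf'.clm_apply contDiffAt_const
    choose q hq hq0 hq1 using fun a => ih (pd f a) (hpd a)
    refine ⟨MvPolynomial.C (f 0) + ∑ a, MvPolynomial.X a * ant (q a), ?_, ?_, ?_⟩
    · -- the estimate
      have hsum : (fun t => ∑ a, |pd f a t - MvPolynomial.eval t (q a)|) =O[𝓝 0]
          fun t : J → ℝ => ‖t‖ ^ K :=
        (IsBigO.sum (s := Finset.univ) fun a _ => (hq a).abs_left).congr_left
          (fun t => by simp only [Finset.sum_apply])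
      obtain ⟨C, hC0, hC⟩ := hsum.exists_nonneg
      have hdiff : ∀ᶠ t in 𝓝 (0 : J → ℝ), DifferentiableAt ℝ f t := by
        have h1 := hf.eventually (by exact_mod_cast WithTop.coe_ne_top)
        filter_upwards [h1] with t ht
        exact ht.differentiableAt (by simp)
      obtain ⟨ε, hε, hball⟩ := Metric.eventually_nhds_iff_ball.1 (hC.bound.and hdiff)
      refine IsBigO.of_bound C ?_
      filter_upwards [Metric.ball_mem_nhds (0 : J → ℝ) hε] with t ht
      have hmem : ∀ s ∈ Icc (0 : ℝ) 1, s • t ∈ Metric.ball (0 : J → ℝ) ε := by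
        intro s hs
        rw [mem_ball_zero_iff] at ht ⊢
        exact lt_of_le_of_lt (norm_eval_smul hs) ht
      set φ : ℝ → ℝ := fun s => f (s • t) - (f 0 + ∑ a, t a * (s * MvPolynomial.eval (s • t)
        (ant (q a)))) with hφ
      have hder : ∀ s ∈ Icc (0 : ℝ) 1, HasDerivWithinAt φ
          (∑ a, t a * (pd f a (s • t) - MvPolynomial.eval (s • t) (q a))) (Icc 0 1) s := by
        intro s hs
        have h1 : HasDerivAt (fun s : ℝ => f (s • t)) (fderiv ℝ f (s • t) t) s := by
          have h2 := (hball _ (hmem s hs)).2.hasFDerivAt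
          have h3 : HasDerivAt (fun s : ℝ => s • t) t s := by
            simpa using (hasDerivAt_id s).smul_const t
          exact h2.comp_hasDerivAt s h3
        have h2 : HasDerivAt (fun s : ℝ => f 0 + ∑ a, t a * (s * MvPolynomial.eval (s • t)
            (ant (q a)))) (∑ a, t a * MvPolynomial.eval (s • t) (q a)) s := by
          apply HasDerivAt.const_add
          apply HasDerivAt.fun_sum
          intro a _
          exact (hasDerivAt_ant (q a) t s).const_mul (t a)
        have h3 : HasDerivWithinAt φ (fderiv ℝ f (s • t) t -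
            ∑ a, t a * MvPolynomial.eval (s • t) (q a)) (Icc 0 1) s :=
          (h1.sub h2).hasDerivWithinAt
        refine h3.congr_deriv ?_
        rw [fderiv_eq_sum, ← Finset.sum_sub_distrib]
        exact Finset.sum_congr rfl fun a _ => by ring
      have hbd : ∀ s ∈ Icc (0 : ℝ) 1,
          ‖∑ a, t a * (pd f a (s • t) - MvPolynomial.eval (s • t) (q a))‖ ≤ C * ‖t‖ ^ (K + 1) := by
        intro s hs
        have h1 := (hball _ (hmem s hs)).1
        rw [Real.norm_eq_abs, abs_of_nonneg (Finset.sum_nonneg fun a _ => abs_nonneg _)] at h1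
        calc ‖∑ a, t a * (pd f a (s • t) - MvPolynomial.eval (s • t) (q a))‖
            ≤ ∑ a, ‖t‖ * |pd f a (s • t) - MvPolynomial.eval (s • t) (q a)| := by
              refine norm_sum_le_of_le _ fun a _ => ?_
              rw [norm_mul]
              exact mul_le_mul_of_nonneg_right (norm_le_pi_norm t a) (norm_nonneg _)
          _ = ‖t‖ * ∑ a, |pd f a (s • t) - MvPolynomial.eval (s • t) (q a)| := by
              rw [Finset.mul_sum]
          _ ≤ ‖t‖ * (C * ‖t‖ ^ K) := by
              refine mul_le_mul_of_nonneg_left (h1.trans ?_) (norm_nonneg _)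
              rw [norm_pow, norm_norm]
              gcongr
              exact norm_eval_smul hs
          _ = C * ‖t‖ ^ (K + 1) := by ring
      have h5 := (convex_Icc (0 : ℝ) 1).norm_image_sub_le_of_norm_hasDerivWithin_le hder hbd
        (left_mem_Icc.2 zero_le_one) (right_mem_Icc.2 zero_le_one)
      have h6 : φ 1 - φ 0 = f t - MvPolynomial.eval t (MvPolynomial.C (f 0) +
          ∑ a, MvPolynomial.X a * ant (q a)) := by
        simp [hφ]
      rw [h6] at h5
      simpa using h5
    · intro _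
      rw [MvPolynomial.coeff_add, MvPolynomial.coeff_sum, MvPolynomial.coeff_zero_C,
        Finset.sum_eq_zero, add_zero]
      intro b _
      rw [mul_comm, MvPolynomial.coeff_mul_X', if_neg (by simp)]
    · intro hK a
      have hK1 : 1 ≤ K := by omega
      rw [MvPolynomial.coeff_add, MvPolynomial.coeff_sum]
      have h1 : (MvPolynomial.C (f 0) : MvPolynomial J ℝ).coeff (Finsupp.single a 1) = 0 := by
        rw [MvPolynomial.coeff_C, if_neg]
        intro h
        have := DFunLike.congr_fun h a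
        simp at this
      have h2 : ∀ b, (MvPolynomial.X b * ant (q b)).coeff (Finsupp.single a 1) =
          if b = a then pd f a 0 else 0 := by
        intro b
        rw [mul_comm, MvPolynomial.coeff_mul_X']
        by_cases hb : b = a
        · subst hb
          rw [if_pos (by simp), if_pos rfl, tsub_self]
          rw [← hq0 b hK1]
          unfold ant
          rw [MvPolynomial.coeff_sum]
          simp only [MvPolynomial.coeff_monomial]
          rw [Finset.sum_ite_eq' (q b).support 0]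
          split_ifs with h3
          · simp
          · rw [MvPolynomial.notMem_support_iff] at h3
            exact h3.symm
        · rw [if_neg hb, if_neg]
          simp only [Finsupp.mem_support_iff, Finsupp.single_apply]
          rw [if_neg (fun h => hb h.symm)]
          simp
      rw [h1, zero_add, Finset.sum_congr rfl fun b _ => h2 b]
      simp

/-! ### Weights -/

/-- the weight of a monomial -/
def wt (w : J → ℝ) (α : J →₀ ℕ) : ℝ := ∑ a, (α a : ℝ) * w a

/-- the part of weight `W` of the polynomial `p` -/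
def wpart (w : J → ℝ) (p : MvPolynomial J ℝ) (W : ℝ) (t : J → ℝ) : ℝ :=
  ∑ α ∈ p.support.filter (fun α => wt w α = W), p.coeff α * ∏ b, t b ^ α b

/-- the nonlinear part of weight `W` of the polynomial `p` -/
def npart (w : J → ℝ) (p : MvPolynomial J ℝ) (W : ℝ) (t : J → ℝ) : ℝ :=
  ∑ α ∈ p.support.filter (fun α => wt w α = W ∧ 2 ≤ ∑ b, α b), p.coeff α * ∏ b, t b ^ α b

/-- the sequence `exp(-w n) P(n)` -/
def tn (w : J → ℝ) (P : J → Polynomial ℝ) (n : ℕ) : J → ℝ :=
  fun a => Real.exp (-w a * n) * (P a).eval (n : ℝ)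

theorem wt_nonneg {w : J → ℝ} (hw : ∀ a, 0 < w a) (α : J →₀ ℕ) : 0 ≤ wt w α :=
  Finset.sum_nonneg fun a _ => mul_nonneg (Nat.cast_nonneg _) (hw a).le

theorem wt_single (w : J → ℝ) (a : J) : wt w (Finsupp.single a 1) = w a := by
  unfold wt
  rw [Finset.sum_eq_single a]
  · simp
  · intro b _ hb
    simp [Finsupp.single_apply, Ne.symm hb]
  · simp

/-- the variables of a nonlinear monomial have smaller weight -/
theorem lt_of_wt {w : J → ℝ} (hw : ∀ a, 0 < w a) {α : J →₀ ℕ} (h2 : 2 ≤ ∑ b, α b) {b : J}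
    (hb : α b ≠ 0) : w b < wt w α := by
  unfold wt
  rw [← Finset.add_sum_erase _ _ (Finset.mem_univ b)] at h2 ⊢
  rcases Nat.lt_or_ge 1 (α b) with h | h
  · have h3 : (2 : ℝ) ≤ α b := by exact_mod_cast h
    have h4 : 0 ≤ ∑ x ∈ Finset.univ.erase b, (α x : ℝ) * w x :=
      Finset.sum_nonneg fun a _ => mul_nonneg (Nat.cast_nonneg _) (hw a).le
    nlinarith [hw b]
  · have h3 : α b = 1 := by omega
    have h4 : 0 < ∑ x ∈ Finset.univ.erase b, α x := by omega
    obtain ⟨c, hc, hc0⟩ := Finset.exists_ne_zero_of_sum_ne_zero h4.ne'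
    have h5 : 0 < ∑ x ∈ Finset.univ.erase b, (α x : ℝ) * w x :=
      Finset.sum_pos' (fun a _ => mul_nonneg (Nat.cast_nonneg _) (hw a).le)
        ⟨c, hc, mul_pos (by exact_mod_cast Nat.pos_of_ne_zero hc0) (hw c)⟩
    rw [h3]
    simpa using h5

theorem wpart_eq {w : J → ℝ} (hw : ∀ a, 0 < w a) (p : MvPolynomial J ℝ) {W : ℝ} (hW : W ≠ 0)
    (t : J → ℝ) : wpart w p W t =
      (∑ a ∈ Finset.univ.filter (fun a => w a = W), p.coeff (Finsupp.single a 1) * t a) +
        npart w p W t := by
  unfold wpart npart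
  have h1 : ∀ α : J →₀ ℕ, (∑ b, α b = 0 ↔ α = 0) := by
    intro α
    constructor
    · intro h
      ext b
      exact (Finset.sum_eq_zero_iff.1 h) b (Finset.mem_univ b)
    · rintro rfl
      simp
  have h2 : p.support.filter (fun α => wt w α = W) =
      (p.support.filter (fun α => wt w α = W ∧ ∑ b, α b = 1)) ∪
        p.support.filter (fun α => wt w α = W ∧ 2 ≤ ∑ b, α b) := by
    ext α
    simp only [Finset.mem_union, Finset.mem_filter]
    constructor
    · rintro ⟨h3, h4⟩
      have h5 : ∑ b, α b ≠ 0 := by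
        intro h
        rw [h1] at h
        apply hW
        rw [← h4, h]
        simp [wt]
      rcases Nat.lt_or_ge 1 (∑ b, α b) with h | h
      · exact Or.inr ⟨h3, h4, h⟩
      · exact Or.inl ⟨h3, h4, by omega⟩
    · rintro (⟨h3, h4, -⟩ | ⟨h3, h4, -⟩) <;> exact ⟨h3, h4⟩
  have h3 : Disjoint (p.support.filter (fun α => wt w α = W ∧ ∑ b, α b = 1))
      (p.support.filter (fun α => wt w α = W ∧ 2 ≤ ∑ b, α b)) := by
    rw [Finset.disjoint_filter]
    intro α _ h4 h5
    omega
  rw [h2, Finset.sum_union h3]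
  congr 1
  -- the linear part
  have h4 : ∀ α : J →₀ ℕ, ∑ b, α b = 1 → ∃ a, α = Finsupp.single a 1 := by
    intro α hα
    obtain ⟨a, -, ha⟩ := Finset.exists_ne_zero_of_sum_ne_zero (by omega : ∑ b, α b ≠ 0)
    refine ⟨a, ?_⟩
    rw [← Finset.add_sum_erase _ _ (Finset.mem_univ a)] at hα
    have h5 : ∑ x ∈ Finset.univ.erase a, α x = 0 := by omega
    ext b
    rcases eq_or_ne b a with h | h
    · subst h; simp; omega
    · rw [Finsupp.single_apply, if_neg (Ne.symm h)]
      exact (Finset.sum_eq_zero_iff.1 h5) b (Finset.mem_erase.2 ⟨h, Finset.mem_univ b⟩)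
  symm
  have h6 : ∑ a ∈ Finset.univ.filter (fun a => w a = W), p.coeff (Finsupp.single a 1) * t a =
      ∑ a ∈ Finset.univ.filter (fun a => w a = W ∧ Finsupp.single a 1 ∈ p.support),
        p.coeff (Finsupp.single a 1) * t a := by
    rw [← Finset.filter_filter]
    symm
    apply Finset.sum_filter_of_ne
    intro a _ h
    rw [MvPolynomial.mem_support_iff]
    intro h0
    rw [h0, zero_mul] at h
    exact h rfl
  rw [h6]
  refine Finset.sum_bij (fun a _ => Finsupp.single a 1) ?_ ?_ ?_ ?_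
  · intro a ha
    simp only [Finset.mem_filter, Finset.mem_univ, true_and] at ha ⊢
    refine ⟨ha.2, by rw [wt_single]; exact ha.1, ?_⟩
    rw [Finset.sum_eq_single a]
    · simp
    · intro b _ hb
      simp [Ne.symm hb]
    · simp
  · intro a _ b _ h
    exact (Finsupp.single_left_inj one_ne_zero).1 h
  · intro α hα
    simp only [Finset.mem_filter] at hα
    obtain ⟨a, rfl⟩ := h4 α hα.2.2
    refine ⟨a, ?_, rfl⟩
    simp only [Finset.mem_filter, Finset.mem_univ, true_and]
    exact ⟨by rw [← hα.2.1, wt_single], hα.1⟩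
  · intro a _
    congr 1
    rw [Finset.prod_eq_single a]
    · simp
    · intro b _ hb
      simp [Ne.symm hb]
    · simp

/-- the nonlinear part is smooth if the variables of smaller weight are -/
theorem contDiffOn_npart {Y : Type} [NormedAddCommGroup Y] [NormedSpace ℝ Y] {w : J → ℝ}
    (hw : ∀ a, 0 < w a) (p : MvPolynomial J ℝ) {W : ℝ} {T : Y → J → ℝ} {V : Set Y}
    {k : WithTop ℕ∞} (hT : ∀ b, w b < W → ContDiffOn ℝ k (fun y => T y b) V) :
    ContDiffOn ℝ k (fun y => npart w p W (T y)) V := by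
  unfold npart
  refine ContDiffOn.sum fun α hα => contDiffOn_const.mul ?_
  refine contDiffOn_prod fun b _ => ?_
  rcases eq_or_ne (α b) 0 with h | h
  · simp only [h, pow_zero]
    exact contDiffOn_const
  · rw [Finset.mem_filter] at hα
    exact (hT b (hα.2.1 ▸ lt_of_wt hw hα.2.2 h)).pow _

/-- the nonlinear part vanishes if the variables of smaller weight do -/
theorem npart_eq_zero {w : J → ℝ} (hw : ∀ a, 0 < w a) (p : MvPolynomial J ℝ) {W : ℝ} {t : J → ℝ}
    (ht : ∀ b, w b < W → t b = 0) : npart w p W t = 0 := by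
  unfold npart
  refine Finset.sum_eq_zero fun α hα => ?_
  rw [Finset.mem_filter] at hα
  obtain ⟨b, -, hb⟩ := Finset.exists_ne_zero_of_sum_ne_zero
    (by have := hα.2.2; omega : ∑ b, α b ≠ 0)
  rw [Finset.prod_eq_zero (Finset.mem_univ b), mul_zero]
  rw [ht b (hα.2.1 ▸ lt_of_wt hw hα.2.2 hb), zero_pow hb]

theorem eval_tn (w : J → ℝ) (p : MvPolynomial J ℝ) (P : J → Polynomial ℝ) (n : ℕ) :
    MvPolynomial.eval (tn w P n) p = ∑ V ∈ p.support.image (wt w), Real.exp (-V * n) *
      (∑ α ∈ p.support.filter (fun α => wt w α = V), Polynomial.C (p.coeff α) *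
        ∏ b, P b ^ α b).eval (n : ℝ) := by
  rw [eval_eq_sum']
  rw [← Finset.sum_fiberwise_of_maps_to (g := wt w) (t := p.support.image (wt w))
    (fun α hα => Finset.mem_image_of_mem _ hα)]
  refine Finset.sum_congr rfl fun V _ => ?_
  rw [Polynomial.eval_finsetSum, Finset.mul_sum]
  refine Finset.sum_congr rfl fun α hα => ?_
  rw [Finset.mem_filter] at hα
  rw [Polynomial.eval_mul, Polynomial.eval_C, Polynomial.eval_prod]
  have h1 : ∏ b, tn w P n b ^ α b = Real.exp (-V * n) * ∏ b, (P b ^ α b).eval (n : ℝ) := by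
    simp only [tn, mul_pow, Finset.prod_mul_distrib, Polynomial.eval_pow]
    congr 1
    rw [← hα.2]
    unfold wt
    simp only [← Real.exp_nat_mul]
    rw [← Real.exp_sum]
    congr 1
    rw [neg_mul, Finset.sum_mul, ← Finset.sum_neg_distrib]
    exact Finset.sum_congr rfl fun b _ => by ring
  rw [h1]
  ring

theorem princ_poly (w : J → ℝ) (p : MvPolynomial J ℝ) (P : J → Polynomial ℝ) {W₀ : ℝ}
    (h : ∀ W < W₀, Tendsto (fun n : ℕ => Real.exp (W * n) * MvPolynomial.eval (tn w P n) p)
      atTop (𝓝 0)) :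
    ∀ W < W₀, wpart w p W (fun a => (P a).eval 0) = 0 := by
  intro W hW
  have h1 := expPoly_unique (p.support.image (wt w)) (fun V =>
    ∑ α ∈ p.support.filter (fun α => wt w α = V), Polynomial.C (p.coeff α) * ∏ b, P b ^ α b)
    (W₀ := W₀) (fun V hV => (h V hV).congr fun n => by rw [eval_tn])
  by_cases hWs : W ∈ p.support.image (wt w)
  · have h2 := h1 W hWs hW
    have h3 := congrArg (Polynomial.eval 0) h2
    simp only [Polynomial.eval_finsetSum, Polynomial.eval_mul, Polynomial.eval_C,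
      Polynomial.eval_prod, Polynomial.eval_pow, Polynomial.eval_zero] at h3
    exact h3
  · unfold wpart
    rw [Finset.filter_eq_empty_iff.2, Finset.sum_empty]
    intro α hα h2
    exact hWs (h2 ▸ Finset.mem_image_of_mem _ hα)

theorem exists_min_weight {w : J → ℝ} (hw : ∀ a, 0 < w a) : ∃ m > 0, ∀ a, m ≤ w a := by
  rcases isEmpty_or_nonempty J with h | h
  · exact ⟨1, one_pos, fun a => (IsEmpty.false a).elim⟩
  · obtain ⟨a, -, ha⟩ := Finset.exists_min_image Finset.univ w Finset.univ_nonempty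
    exact ⟨w a, hw a, fun b => ha b (Finset.mem_univ b)⟩

theorem tendsto_norm_tn {w : J → ℝ} {m c : ℝ} (hm : ∀ a, m ≤ w a) (hc : c < m)
    (P : J → Polynomial ℝ) :
    Tendsto (fun n : ℕ => Real.exp (c * n) * ‖tn w P n‖) atTop (𝓝 0) := by
  have h1 : Tendsto (fun n : ℕ => ∑ a, |Real.exp (-(w a - c) * n) * (P a).eval (n : ℝ)|)
      atTop (𝓝 0) := by
    rw [show (0 : ℝ) = ∑ a : J, |(0 : ℝ)| by simp]
    refine tendsto_finsetSum _ fun a _ => ?_
    exact (tendsto_exp_poly (sub_pos.2 (hc.trans_le (hm a))) (P a)).abs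
  refine squeeze_zero (fun n => by positivity) (fun n => ?_) h1
  have h2 : ‖tn w P n‖ ≤ ∑ a, |tn w P n a| := by
    rw [pi_norm_le_iff_of_nonneg (Finset.sum_nonneg fun a _ => abs_nonneg _)]
    intro a
    exact Finset.single_le_sum (f := fun a => |tn w P n a|) (fun b _ => abs_nonneg _)
      (Finset.mem_univ a)
  calc Real.exp (c * n) * ‖tn w P n‖ ≤ Real.exp (c * n) * ∑ a, |tn w P n a| :=
        mul_le_mul_of_nonneg_left h2 (Real.exp_pos _).le
    _ = ∑ a, |Real.exp (-(w a - c) * n) * (P a).eval (n : ℝ)| := by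
        rw [Finset.mul_sum]
        refine Finset.sum_congr rfl fun a _ => ?_
        unfold tn
        rw [abs_mul, abs_mul, abs_of_pos (Real.exp_pos _), abs_of_pos (Real.exp_pos _),
          ← mul_assoc, ← Real.exp_add]
        congr 2
        ring

/-- **The principle of weights.** -/
theorem princ {w : J → ℝ} (hw : ∀ a, 0 < w a) {ρ : (J → ℝ) → ℝ} (hρ : ContDiffAt ℝ ∞ ρ 0)
    (W₀ : ℝ) : ∃ p : MvPolynomial J ℝ, p.coeff 0 = ρ 0 ∧
      (∀ a, p.coeff (Finsupp.single a 1) = pd ρ a 0) ∧
      ∀ P : J → Polynomial ℝ,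
        (∀ W < W₀, Tendsto (fun n : ℕ => Real.exp (W * n) * ρ (tn w P n)) atTop (𝓝 0)) →
        ∀ W < W₀, wpart w p W (fun a => (P a).eval 0) = 0 := by
  obtain ⟨m, hm0, hm⟩ := exists_min_weight hw
  obtain ⟨K, hK⟩ := exists_nat_gt (max 2 (|W₀| / m))
  have hK2 : 2 < K := by exact_mod_cast lt_of_le_of_lt (le_max_left _ _) hK
  have hKW : |W₀| / m < K := lt_of_le_of_lt (le_max_right _ _) hK
  have hK0 : (0 : ℝ) < K := by exact_mod_cast (by omega : 0 < K)
  obtain ⟨p, hp, hp0, hp1⟩ := taylor_mv K ρ (hρ.of_le (by exact_mod_cast le_top))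
  refine ⟨p, hp0 (by omega), hp1 (by omega), fun P hP => ?_⟩
  apply princ_poly
  intro W hW
  -- the difference is negligible
  have htn : Tendsto (tn w P) atTop (𝓝 0) := by
    rw [tendsto_zero_iff_norm_tendsto_zero]
    refine (tendsto_norm_tn hm hm0 P).congr fun n => by simp
  obtain ⟨C, hC⟩ := (hp.comp_tendsto htn).bound
  have hWK : W / K < m := by
    rw [div_lt_iff₀ hK0, mul_comm]
    rw [div_lt_iff₀ hm0] at hKW
    exact lt_of_lt_of_le hW ((le_abs_self _).trans hKW.le)
  have h1 : Tendsto (fun n : ℕ => Real.exp (W * n) * ‖tn w P n‖ ^ K) atTop (𝓝 0) := by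
    have h2 := (tendsto_norm_tn hm hWK P).pow K
    rw [zero_pow (by omega)] at h2
    refine h2.congr fun n => ?_
    rw [mul_pow, ← Real.exp_nat_mul]
    congr 2
    field_simp
  have h3 : Tendsto (fun n : ℕ => Real.exp (W * n) *
      (ρ (tn w P n) - MvPolynomial.eval (tn w P n) p)) atTop (𝓝 0) := by
    have h4 := h1.const_mul C
    rw [mul_zero] at h4
    refine squeeze_zero_norm' ?_ h4
    filter_upwards [hC] with n hn
    rw [norm_mul, Real.norm_eq_abs (Real.exp _), abs_of_pos (Real.exp_pos _)]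
    simp only [Function.comp_apply, norm_pow, norm_norm] at hn
    calc Real.exp (W * n) * ‖ρ (tn w P n) - MvPolynomial.eval (tn w P n) p‖
        ≤ Real.exp (W * n) * (C * ‖tn w P n‖ ^ K) :=
          mul_le_mul_of_nonneg_left hn (Real.exp_pos _).le
      _ = C * (Real.exp (W * n) * ‖tn w P n‖ ^ K) := by ring
  have h5 := (hP W hW).sub h3
  rw [sub_zero] at h5
  refine h5.congr fun n => by ring

end Vale.Agent.P207.N3.H547
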